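import Crest.Agent.R134.Defs

/-! Row 134: the Baire category step. -/

set_option autoImplicit false

namespace Crest.Agent.R134

open scoped InnerProductSpace
open Filter Topology

variable {H : Type*} [NormedAddCommGroup H] [InnerProductSpace ℂ H] [CompleteSpace H]

theorem Setup.norm_mul_unitary {M : StarSubalgebra ℂ (H →L[ℂ] H)} {Ω : H} (hS : Setup M Ω)
    {x u : H →L[ℂ] H} (hx : x ∈ M) (hu : u ∈ M) (hu' : u ∈ unitary (H →L[ℂ] H)) :
    ‖x (u Ω)‖ = ‖x Ω‖ := by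
  rw [← mul_apply_eq_comp, ← hS.norm_star _ (mul_mem hx hu), star_mul, mul_apply_eq_comp,
    ContinuousLinearMap.norm_map_of_mem_unitary (Unitary.star_mem hu'), hS.norm_star _ hx]

theorem lipschitz_word {M : StarSubalgebra ℂ (H →L[ℂ] H)} {Ω : H} (hS : Setup M Ω) {ι : Type*}
    (g : FreeGroup ι) : ∃ C : ℝ, 0 ≤ C ∧ ∀ π π' : FreeGroup ι →* (H →L[ℂ] H), URep M π → URep M π' →
      ∀ δ : ℝ, 0 ≤ δ → (∀ i, ‖π (FreeGroup.of i) Ω - π' (FreeGroup.of i) Ω‖ ≤ δ) →
        ‖π g Ω - π' g Ω‖ ≤ C * δ := by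
  induction g using FreeGroup.induction_on with
  | C1 => exact ⟨0, le_rfl, fun π π' _ _ δ _ _ => by simp⟩
  | of i => exact ⟨1, zero_le_one, fun π π' _ _ δ _ h => by rw [one_mul]; exact h i⟩
  | inv_of i _ =>
    refine ⟨1, zero_le_one, fun π π' h1 h2 δ _ h => ?_⟩
    rw [one_mul, ← h1.star_eq, ← h2.star_eq, ← sub_apply, ← star_sub,
      hS.norm_star _ (sub_mem (h1.mem _) (h2.mem _))]
    exact h i
  | mul g k hg hk =>
    obtain ⟨C, hC, hg⟩ := hg
    obtain ⟨D, hD, hk⟩ := hk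
    refine ⟨C + D, add_nonneg hC hD, fun π π' h1 h2 δ hδ h => ?_⟩
    have e1 : π (g * k) Ω - π' (g * k) Ω =
        (π g - π' g) (π' k Ω) + π g (π k Ω - π' k Ω) := by
      simp only [map_mul, mul_apply_eq_comp, sub_apply, map_sub]
      abel
    rw [e1, add_mul]
    refine (norm_add_le _ _).trans (add_le_add ?_ ?_)
    · rw [hS.norm_mul_unitary (sub_mem (h1.mem _) (h2.mem _)) (h2.mem _) (h2.mem_unitary _)]
      exact hg π π' h1 h2 δ hδ h
    · rw [h1.norm_apply]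
      exact hk π π' h1 h2 δ hδ h

/-- Lipschitz bound for linear combinations -/
theorem lipschitz_comb {M : StarSubalgebra ℂ (H →L[ℂ] H)} {Ω : H} (hS : Setup M Ω) {ι : Type*}
    (c : FreeGroup ι →₀ ℂ) : ∃ C : ℝ, 0 ≤ C ∧ ∀ π π' : FreeGroup ι →* (H →L[ℂ] H), URep M π →
      URep M π' → ∀ δ : ℝ, 0 ≤ δ → (∀ i, ‖π (FreeGroup.of i) Ω - π' (FreeGroup.of i) Ω‖ ≤ δ) →
        ‖(c.sum fun g r => r • π g Ω) - c.sum fun g r => r • π' g Ω‖ ≤ C * δ := by
  choose C hC0 hC using lipschitz_word hS (ι := ι)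
  refine ⟨∑ g ∈ c.support, ‖c g‖ * C g,
    Finset.sum_nonneg fun g _ => mul_nonneg (norm_nonneg _) (hC0 g), fun π π' h1 h2 δ hδ h => ?_⟩
  rw [Finsupp.sum, Finsupp.sum, ← Finset.sum_sub_distrib, Finset.sum_mul]
  refine (norm_sum_le _ _).trans (Finset.sum_le_sum fun g _ => ?_)
  rw [← smul_sub, norm_smul, mul_assoc]
  exact mul_le_mul_of_nonneg_left (hC g π π' h1 h2 δ hδ h) (norm_nonneg _)

theorem exists_urep {M : StarSubalgebra ℂ (H →L[ℂ] H)} {ι : Type*} (v : ι → (H →L[ℂ] H))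
    (hv : ∀ i, v i ∈ M) (hu : ∀ i, v i ∈ unitary (H →L[ℂ] H)) :
    ∃ ρ : FreeGroup ι →* (H →L[ℂ] H), URep M ρ ∧ ∀ i, ρ (FreeGroup.of i) = v i := by
  let f : FreeGroup ι →* unitary (H →L[ℂ] H) := FreeGroup.lift fun i => ⟨v i, hu i⟩
  have hs : ∀ g, star (f g : H →L[ℂ] H) = f g⁻¹ := fun g => by
    rw [map_inv, ← Unitary.coe_star, Unitary.star_eq_inv]
  refine ⟨(unitary (H →L[ℂ] H)).subtype.comp f, ⟨fun g => ?_, hs⟩, fun i => by simp [f]⟩
  change (f g : H →L[ℂ] H) ∈ M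
  induction g using FreeGroup.induction_on with
  | C1 => rw [map_one]; exact one_mem M
  | of i => simpa [f] using hv i
  | inv_of i h => rw [← hs]; exact star_mem h
  | mul g k hg hk => rw [map_mul]; exact mul_mem hg hk

/-- tuples of vectors coming from regular representations -/
def TT (M : StarSubalgebra ℂ (H →L[ℂ] H)) (Ω : H) (ι : Type) : Set (ι → H) :=
  {v | ∃ ρ : FreeGroup ι →* (H →L[ℂ] H), URep M ρ ∧ Reg ρ Ω ∧ ∀ i, v i = ρ (FreeGroup.of i) Ω}

theorem isClosed_TT {M : StarSubalgebra ℂ (H →L[ℂ] H)} {Ω : H} (hS : Setup M Ω) {ι : Type}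
    [Fintype ι] : IsClosed (TT M Ω ι) := by
  refine isClosed_of_closure_subset fun v hv => ?_
  obtain ⟨w, hw, hlim⟩ := mem_closure_iff_seq_limit.1 hv
  choose ρ h1 h2 h3 using hw
  have hi : ∀ i, Tendsto (fun k => ρ k (FreeGroup.of i) Ω) atTop (𝓝 (v i)) := fun i => by
    simpa only [h3] using (tendsto_pi_nhds.1 hlim) i
  have : ∀ i, ∃ u ∈ M, u ∈ unitary (H →L[ℂ] H) ∧ v i = u Ω := fun i => by
    obtain ⟨u, hu, hu', hl⟩ := hS.complete (fun k => ρ k (FreeGroup.of i)) (fun k => (h1 k).mem _)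
      (fun k => (h1 k).mem_unitary _) (hi i).cauchySeq
    exact ⟨u, hu, hu', tendsto_nhds_unique (hi i) hl⟩
  choose u hu hu' hvu using this
  obtain ⟨σ, hσ, hσu⟩ := exists_urep u hu hu'
  refine ⟨σ, hσ, fun g hg => ?_, fun i => by rw [hσu, hvu]⟩
  obtain ⟨C, -, hC⟩ := lipschitz_word hS g
  have h4 : Tendsto (fun k => ρ k g Ω) atTop (𝓝 (σ g Ω)) := by
    rw [tendsto_iff_norm_sub_tendsto_zero]
    have h5 : Tendsto (fun k => C * ‖w k - v‖) atTop (𝓝 0) := by
      simpa using (tendsto_iff_norm_sub_tendsto_zero.1 hlim).const_mul C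
    refine squeeze_zero (fun _ => norm_nonneg _) (fun k => ?_) h5
    refine hC _ _ (h1 k) hσ _ (norm_nonneg _) fun i => ?_
    rw [← h3, hσu, ← hvu]
    exact norm_le_pi_norm (w k - v) i
  have h6 : Tendsto (fun k => ⟪Ω, ρ k g Ω⟫_ℂ) atTop (𝓝 ⟪Ω, σ g Ω⟫_ℂ) :=
    tendsto_const_nhds.inner h4
  simp only [h2 _ g hg] at h6
  exact (tendsto_nhds_unique tendsto_const_nhds h6).symm

theorem baire {M : StarSubalgebra ℂ (H →L[ℂ] H)} {Ω : H} (hS : Setup M Ω) {ι : Type} [Fintype ι]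
    (hstep : StepProp M Ω ι) (π₀ : FreeGroup (Option ι) →* (H →L[ℂ] H)) (h₀ : Good M Ω π₀) :
    ∃ ρ : FreeGroup ι →* (H →L[ℂ] H), Good M Ω ρ := by
  classical
  let j : FreeGroup ι →* FreeGroup (Option ι) := FreeGroup.map some
  have hj : Function.Injective j := FreeGroup.map_injective (Option.some_injective ι)
  have hres : ∀ π : FreeGroup (Option ι) →* (H →L[ℂ] H), Good M Ω π →
      URep M (π.comp j) ∧ Reg (π.comp j) Ω := fun π h =>
    ⟨⟨fun g => h.urep.mem _, fun g => by simp [h.urep.star_eq]⟩,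
      fun g hg => h.reg _ fun h1 => hg (hj (by rw [h1, map_one]))⟩
  let S : Set (ι → H) := {v | ∃ π : FreeGroup (Option ι) →* (H →L[ℂ] H), Good M Ω π ∧
    ∀ i, v i = π (FreeGroup.of (some i)) Ω}
  have hST : closure S ⊆ TT M Ω ι := by
    refine closure_minimal ?_ (isClosed_TT hS)
    rintro v ⟨π, h, hv⟩
    exact ⟨π.comp j, (hres π h).1, (hres π h).2, fun i => by simp [hv, j]⟩
  have : CompleteSpace (closure S) := isClosed_closure.completeSpace_coe
  have : Nonempty (closure S) := ⟨⟨_, subset_closure ⟨π₀, h₀, fun _ => rfl⟩⟩⟩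
  let O : FreeGroup (Option ι) × ℕ → Set (closure S) := fun p => {v | ∃ ρ : FreeGroup ι →* (H →L[ℂ] H),
    URep M ρ ∧ (∀ i, v.1 i = ρ (FreeGroup.of i) Ω) ∧ ∃ c : FreeGroup ι →₀ ℂ,
      ‖π₀ p.1 Ω - c.sum fun g r => r • ρ g Ω‖ < 1 / ((p.2 : ℝ) + 1)}
  have hopen : ∀ p, IsOpen (O p) := by
    intro p
    rw [Metric.isOpen_iff]
    rintro v ⟨ρ, h1, h2, c, h3⟩
    obtain ⟨C, hC0, hC⟩ := lipschitz_comb hS c
    set η := 1 / ((p.2 : ℝ) + 1) - ‖π₀ p.1 Ω - c.sum fun g r => r • ρ g Ω‖ with hη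
    have hη0 : 0 < η := sub_pos.2 h3
    refine ⟨η / (C + 1), by positivity, fun v' hv' => ?_⟩
    obtain ⟨ρ', h4, -, h5⟩ := hST v'.2
    refine ⟨ρ', h4, h5, c, ?_⟩
    have h6 := hC ρ ρ' h1 h4 (η / (C + 1)) (by positivity) fun i => by
      rw [← h2, ← h5, ← dist_eq_norm, dist_comm]
      exact (dist_le_pi_dist v'.1 v.1 i).trans (le_of_lt hv')
    have h7 : C * (η / (C + 1)) < η := by
      rw [← mul_div_assoc, div_lt_iff₀ (by positivity)]
      nlinarith
    have h8 := norm_sub_le_norm_sub_add_norm_sub (π₀ p.1 Ω) (c.sum fun g r => r • ρ g Ω)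
      (c.sum fun g r => r • ρ' g Ω)
    linarith
  have hdense : ∀ p, Dense (O p) := by
    intro p
    rw [Metric.dense_iff]
    intro v r hr
    obtain ⟨w, ⟨π, hπ, hw⟩, hvw⟩ := Metric.mem_closure_iff.1 v.2 (r / 2) (by positivity)
    have hη : 0 < 1 / ((p.2 : ℝ) + 1) / 2 := by positivity
    set η := 1 / ((p.2 : ℝ) + 1) / 2 with hη'
    obtain ⟨ξ, hξ, hd⟩ := Metric.mem_closure_iff.1 (hπ.tot (π₀ p.1 Ω)) η hη
    obtain ⟨c, rfl⟩ := Finsupp.mem_span_range_iff_exists_finsupp.1 hξ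
    obtain ⟨C, hC0, hC⟩ := lipschitz_comb hS c
    obtain ⟨π', W, hπ', h1, h2⟩ := hstep π hπ (min (r / 2) (η / (C + 1))) (by positivity)
    let r₀ : FreeGroup (Option ι) →* FreeGroup ι :=
      FreeGroup.lift fun o => o.elim W FreeGroup.of
    let v' : closure S := ⟨fun i => π' (FreeGroup.of (some i)) Ω, subset_closure ⟨π', hπ', fun _ => rfl⟩⟩
    refine ⟨v', ?_, π'.comp j, (hres π' hπ').1, fun i => by simp [v', j], c.mapDomain r₀, ?_⟩
    · have h3 : dist v'.1 w ≤ r / 2 := by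
        rw [dist_pi_le_iff (by positivity)]
        intro i
        rw [dist_eq_norm, hw]
        exact (h1 i).trans (min_le_left _ _)
      have h4 := dist_triangle v'.1 w v.1
      rw [dist_comm w] at h4
      change dist v'.1 v.1 < r
      linarith
    · rw [Finsupp.sum_mapDomain_index (by simp) (fun _ _ _ => add_smul _ _ _)]
      have hu : URep M ((π'.comp j).comp r₀) :=
        ⟨fun g => hπ'.urep.mem _, fun g => by simp [hπ'.urep.star_eq]⟩
      have h6 := hC π _ hπ.urep hu (η / (C + 1)) (by positivity) fun o => by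
        rw [norm_sub_rev]
        cases o with
        | none => simpa [r₀, j] using h2.trans (min_le_right _ _)
        | some i => simpa [r₀, j] using (h1 i).trans (min_le_right _ _)
      have h7 : C * (η / (C + 1)) < η := by
        rw [← mul_div_assoc, div_lt_iff₀ (by positivity)]
        nlinarith
      have h8 := norm_sub_le_norm_sub_add_norm_sub (π₀ p.1 Ω) (c.sum fun g r => r • π g Ω)
        (c.sum fun g r => r • ((π'.comp j).comp r₀) g Ω)
      rw [dist_eq_norm] at hd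
      change ‖π₀ p.1 Ω - c.sum fun g r => r • ((π'.comp j).comp r₀) g Ω‖ < _
      linarith
  obtain ⟨v, hv⟩ := (dense_iInter_of_isOpen hopen hdense).nonempty
  obtain ⟨ρ, h1, h2, h3⟩ := hST v.2
  refine ⟨ρ, h1, h2, ?_⟩
  have key : ∀ g, π₀ g Ω ∈
      (Submodule.span ℂ (Set.range fun g => ρ g Ω)).topologicalClosure := by
    intro g
    change π₀ g Ω ∈ closure (Submodule.span ℂ (Set.range fun g => ρ g Ω) : Set H)
    rw [Metric.mem_closure_iff]
    intro ε hε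
    obtain ⟨k, hk⟩ := exists_nat_one_div_lt hε
    obtain ⟨ρ', h4, h5, c, h6⟩ := Set.mem_iInter.1 hv (g, k)
    obtain ⟨C, -, hC⟩ := lipschitz_comb hS c
    have h7 := hC ρ' ρ h4 h1 0 le_rfl fun i => by rw [← h3, ← h5, sub_self, norm_zero]
    rw [mul_zero, norm_le_zero_iff, sub_eq_zero] at h7
    refine ⟨_, Finsupp.mem_span_range_iff_exists_finsupp.2 ⟨c, rfl⟩, ?_⟩
    rw [dist_eq_norm, ← h7]
    exact h6.trans hk
  have h4 : Submodule.span ℂ (Set.range fun g => π₀ g Ω) ≤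
      (Submodule.span ℂ (Set.range fun g => ρ g Ω)).topologicalClosure :=
    Submodule.span_le.2 (Set.range_subset_iff.2 key)
  exact dense_closure.1 (h₀.tot.mono h4)

end Crest.Agent.R134
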