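import Crest.Agent.R134.PP

/-! Row 134: the approximate inverse of the sum of prefixes. -/

set_option autoImplicit false
set_option linter.unusedSectionVars false

namespace Crest.Agent.R134

/-- support predicate -/
def Sp {Γ : Type*} (Q : Γ → Prop) (y : RG Γ) : Prop := ∀ g, y.coeff g ≠ 0 → Q g

theorem Sp.sum {Γ κ : Type*} {Q : Γ → Prop} {s : Finset κ} {f : κ → RG Γ}
    (h : ∀ i ∈ s, Sp Q (f i)) : Sp Q (∑ i ∈ s, f i) := by
  intro g hg
  rw [MonoidAlgebra.coeff_sum, Finsupp.finsetSum_apply] at hg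
  obtain ⟨i, hi, h1⟩ := Finset.exists_ne_zero_of_sum_ne_zero hg
  exact h i hi g h1

theorem Sp.smul {Γ : Type*} {Q : Γ → Prop} {y : RG Γ} (h : Sp Q y) (c : ℝ) : Sp Q (c • y) := by
  intro g hg
  rw [MonoidAlgebra.coeff_smul_apply, smul_eq_mul] at hg
  exact h g (right_ne_zero_of_mul hg)

theorem Sp.mono {Γ : Type*} {Q Q' : Γ → Prop} {y : RG Γ} (h : Sp Q y) (hQ : ∀ g, Q g → Q' g) :
    Sp Q' y := fun g hg => hQ g (h g hg)

theorem Sp.e_mul {Γ : Type*} [Group Γ] {Q Q' : Γ → Prop} {y : RG Γ} (h : Sp Q y) (t : Γ)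
    (hQ : ∀ g, Q g → Q' (t * g)) : Sp Q' (e t * y) := by
  intro g hg
  rw [coeff_e_mul] at hg
  simpa using hQ _ (h _ hg)

theorem Sp.one {Γ : Type*} [Group Γ] : Sp (fun g : Γ => g = 1) 1 := by
  intro g hg
  by_contra h
  exact hg (by simp [MonoidAlgebra.one_def, h])

theorem Sp.disj {Γ : Type*} {Q Q' : Γ → Prop} {y z : RG Γ} (h : Sp Q y) (h' : Sp Q' z)
    (hQ : ∀ g, Q g → Q' g → False) (g : Γ) : y.coeff g = 0 ∨ z.coeff g = 0 := by
  by_contra hne
  rw [not_or] at hne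
  exact hQ g (h g hne.1) (h' g hne.2)

/-- indices that are not cyclically adjacent -/
def Far {l : ℕ} (i : Fin (l + 3)) : Finset (Fin (l + 3)) := Finset.univ \ {i, i + 1, i - 1}

theorem mem_Far {l : ℕ} {i j : Fin (l + 3)} : j ∈ Far i ↔ j ≠ i ∧ j ≠ i + 1 ∧ j + 1 ≠ i := by
  simp [Far, eq_sub_iff_add_eq]

theorem Far_symm {l : ℕ} {i j : Fin (l + 3)} : j ∈ Far i ↔ i ∈ Far j := by
  rw [mem_Far, mem_Far]
  constructor <;> rintro ⟨h1, h2, h3⟩ <;> exact ⟨h1.symm, h3.symm, h2.symm⟩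

theorem card_Far {l : ℕ} (i : Fin (l + 3)) : (Far i).card = l := by
  have h1 : (1 : Fin (l + 3)) ≠ 0 := by simp
  have h2 : (1 : Fin (l + 3)) + 1 ≠ 0 := by
    intro h
    have := congrArg Fin.val h
    rw [Fin.val_add] at this
    simp at this
    rw [Nat.mod_eq_of_lt (by omega)] at this
    omega
  have h3 : ({i, i + 1, i - 1} : Finset (Fin (l + 3))).card = 3 := by
    rw [Finset.card_eq_three]
    refine ⟨i, i + 1, i - 1, ?_, ?_, ?_, rfl⟩
    · simpa using h1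
    · intro h
      rw [eq_sub_iff_add_eq] at h
      exact h1 (by simpa using h)
    · intro h
      rw [eq_sub_iff_add_eq, add_assoc] at h
      exact h2 (by simpa using h)
  rw [Far, Finset.card_sdiff_of_subset (Finset.subset_univ _), h3]
  simp

theorem far_val {l : ℕ} {i j : Fin (l + 3)} (h : j ∈ Far i) :
    j.val + 2 ≤ i.val ∨ i.val + 2 ≤ j.val := by
  obtain ⟨h1, h2, h3⟩ := mem_Far.1 h
  have hi := i.2
  have hj := j.2
  have e1 : j.val ≠ i.val := fun h => h1 (Fin.ext h)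
  have e2 : j.val ≠ i.val + 1 := fun h => h2 (Fin.ext (by
    rw [Fin.val_add, Fin.val_one, Nat.mod_eq_of_lt (by omega)]; exact h))
  have e3 : j.val + 1 ≠ i.val := fun h => h3 (Fin.ext (by
    rw [Fin.val_add, Fin.val_one, Nat.mod_eq_of_lt (by omega)]; exact h))
  omega

namespace PP

variable {Γ Ω : Type*} [Group Γ] [MulAction Γ Ω] (P : PP Γ Ω) {l : ℕ}

/-- the moves -/
noncomputable def u (j i : Fin (l + 3)) : RG Γ := e (P.T (j.val + 2) * (P.T (i.val + 2))⁻¹)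

/-- sums over admissible paths of length `m` -/
noncomputable def F : ℕ → Fin (l + 3) → RG Γ
  | 0, _ => 1
  | m + 1, i => ∑ j ∈ Far i, ∑ i' ∈ Finset.univ.erase j, P.u j i' * F m i'

/-- weighted sums -/
noncomputable def FF (κ : ℕ → ℝ) (R : ℕ) (i : Fin (l + 3)) : RG Γ :=
  ∑ m ∈ Finset.range R, κ m • P.F m i

/-- one more move -/
noncomputable def GG (κ : ℕ → ℝ) (R : ℕ) (j : Fin (l + 3)) : RG Γ :=
  ∑ i' ∈ Finset.univ.erase j, P.u j i' * P.FF κ R i'

theorem FF_succ (κ : ℕ → ℝ) (R : ℕ) (i : Fin (l + 3)) :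
    P.FF κ (R + 1) i = κ 0 • 1 + ∑ j ∈ Far i, P.GG (fun m => κ (m + 1)) R j := by
  rw [FF, Finset.sum_range_succ', add_comm]
  congr 1
  simp only [F, GG, FF, Finset.smul_sum, Finset.mul_sum, mul_smul_comm]
  rw [Finset.sum_comm]
  refine Finset.sum_congr rfl fun j _ => ?_
  rw [Finset.sum_comm]

theorem sp_F (m : ℕ) (i : Fin (l + 3)) : Sp (fun g => P.D i.val (g • P.x₀)) (P.F m i) := by
  induction m generalizing i with
  | zero => exact Sp.one.mono fun g hg => by rw [hg, one_smul]; exact P.D_base _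
  | succ m ih =>
    refine Sp.sum fun j hj => Sp.sum fun i' hi' => (ih i').e_mul _ fun g hg => ?_
    rw [mul_smul]
    exact Z.toD P (fun h => (Finset.ne_of_mem_erase hi') (Fin.ext h).symm) (far_val hj)
      (D.toZ P j.val hg)

theorem sp_FF (κ : ℕ → ℝ) (R : ℕ) (i : Fin (l + 3)) :
    Sp (fun g => P.D i.val (g • P.x₀)) (P.FF κ R i) :=
  Sp.sum fun m _ => (P.sp_F m i).smul _

theorem sp_uFF (κ : ℕ → ℝ) (R : ℕ) (j i : Fin (l + 3)) :
    Sp (fun g => P.Z j.val i.val (g • P.x₀)) (P.u j i * P.FF κ R i) :=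
  (P.sp_FF κ R i).e_mul _ fun g hg => by rw [mul_smul]; exact D.toZ P j.val hg

theorem sp_GG (κ : ℕ → ℝ) (R : ℕ) (j : Fin (l + 3)) :
    Sp (fun g => ∃ i : Fin (l + 3), j.val ≠ i.val ∧ P.Z j.val i.val (g • P.x₀)) (P.GG κ R j) :=
  Sp.sum fun i hi => (P.sp_uFF κ R j i).mono fun g hg =>
    ⟨i, fun h => (Finset.ne_of_mem_erase hi) (Fin.ext h).symm, hg⟩

theorem nsq_GG {κ : ℕ → ℝ} {R : ℕ} {N : ℝ} (hN : ∀ i : Fin (l + 3), nsq (P.FF κ R i) = N)
    (j : Fin (l + 3)) : nsq (P.GG κ R j) = (l + 2) * N := by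
  rw [GG, nsq_sum_of_disjoint]
  · simp only [u, nsq_e_mul, hN, Finset.sum_const, Finset.card_erase_of_mem (Finset.mem_univ _),
      Finset.card_univ, Fintype.card_fin, nsmul_eq_mul]
    simp
  · intro i hi i' hi' hne
    refine (P.sp_uFF κ R j i).disj (P.sp_uFF κ R j i') fun g h1 h2 => hne (Fin.ext ?_)
    exact (Z.unique P (fun h => (Finset.ne_of_mem_erase hi) (Fin.ext h).symm)
      (fun h => (Finset.ne_of_mem_erase hi') (Fin.ext h).symm) h1 h2).2

theorem nsq_sum_GG {κ : ℕ → ℝ} {R : ℕ} {N : ℝ} (hN : ∀ i : Fin (l + 3), nsq (P.FF κ R i) = N)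
    (S : Finset (Fin (l + 3))) : nsq (∑ j ∈ S, P.GG κ R j) = S.card * ((l + 2) * N) := by
  rw [nsq_sum_of_disjoint]
  · simp only [P.nsq_GG hN, Finset.sum_const, nsmul_eq_mul]
  · intro j _ j' _ hne
    refine (P.sp_GG κ R j).disj (P.sp_GG κ R j') ?_
    rintro g ⟨i, h1, h2⟩ ⟨i', h3, h4⟩
    exact hne (Fin.ext (Z.unique P h1 h3 h2 h4).1)

theorem nsq_FF (R : ℕ) (κ : ℕ → ℝ) (i : Fin (l + 3)) :
    nsq (P.FF κ R i) = ∑ m ∈ Finset.range R, κ m ^ 2 * ((l : ℝ) * (l + 2)) ^ m := by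
  induction R generalizing κ i with
  | zero => simp [FF]
  | succ R ih =>
    rw [FF_succ, nsq_add_of_disjoint, P.nsq_sum_GG (ih _), card_Far, nsq_smul,
      Finset.sum_range_succ', add_comm, Finset.mul_sum, Finset.mul_sum]
    · congr 1
      · exact Finset.sum_congr rfl fun m _ => by ring
      · simp [MonoidAlgebra.one_def]
    · refine (Sp.one.smul _).disj (Sp.sum fun j _ => (P.sp_GG _ R j).mono
        (Q' := fun g => ∃ j i : ℕ, j ≠ i ∧ P.Z j i (g • P.x₀)) fun g ⟨i, h1, h2⟩ => ⟨_, _, h1, h2⟩) ?_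
      rintro g rfl ⟨j, i, h1, h2⟩
      rw [one_smul] at h2
      exact P.not_Z_base h1 h2

/-- the approximate inverse -/
noncomputable def KK (l : ℕ) (κ : ℕ → ℝ) (R : ℕ) : RG Γ :=
  ∑ i : Fin (l + 3), e (P.T (i.val + 2))⁻¹ * P.FF κ R i

theorem nsq_KK (κ : ℕ → ℝ) (R : ℕ) : nsq (P.KK l κ R) =
    (l + 3) * ∑ m ∈ Finset.range R, κ m ^ 2 * ((l : ℝ) * (l + 2)) ^ m := by
  rw [KK, nsq_sum_of_disjoint]
  · simp [nsq_e_mul, nsq_FF]
  · intro i _ i' _ hne
    have hsp : ∀ i : Fin (l + 3), Sp (fun g => ∀ j : ℕ, P.Z j i.val ((P.T (j + 2) * g) • P.x₀))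
        (e (P.T (i.val + 2))⁻¹ * P.FF κ R i) := fun i =>
      (P.sp_FF κ R i).e_mul _ fun g hg j => by
        rw [← mul_assoc, mul_smul]; exact D.toZ P j hg
    refine (hsp i).disj (hsp i') fun g h1 h2 => hne (Fin.ext ?_)
    exact (Z.unique P (j := i.val + i'.val + 1) (by omega) (by omega) (h1 _) (h2 _)).2

theorem J_mul_KK (κ : ℕ → ℝ) (R : ℕ) (hκ : κ (R + 1) = 0) :
    (∑ j : Fin (l + 3), e (P.T (j.val + 2))) * P.KK l κ (R + 1) =
      ((l + 3 : ℝ) * κ 0) • 1 +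
        ∑ j : Fin (l + 3), P.GG (fun m => κ m + l * κ (m + 1)) (R + 1) j := by
  have h1 : ∀ j : Fin (l + 3), e (P.T (j.val + 2)) * P.KK l κ (R + 1) =
      P.FF κ (R + 1) j + P.GG κ (R + 1) j := by
    intro j
    rw [KK, Finset.mul_sum, ← Finset.add_sum_erase _ _ (Finset.mem_univ j), GG, ← mul_assoc, e_mul_e,
      mul_inv_cancel, e_one, one_mul]
    congr 1
    exact Finset.sum_congr rfl fun i _ => by rw [← mul_assoc, e_mul_e, u]
  have h2 : ∀ j : Fin (l + 3), P.GG (fun m => κ m + l * κ (m + 1)) (R + 1) j =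
      P.GG κ (R + 1) j + (l : ℝ) • P.GG (fun m => κ (m + 1)) R j := by
    intro j
    rw [GG, GG, GG, Finset.smul_sum, ← Finset.sum_add_distrib]
    refine Finset.sum_congr rfl fun i _ => ?_
    rw [← mul_smul_comm, ← mul_add]
    congr 1
    have : P.FF (fun m => κ (m + 1)) R i = P.FF (fun m => κ (m + 1)) (R + 1) i := by
      rw [FF, FF, Finset.sum_range_succ, hκ, zero_smul, add_zero]
    rw [this, FF, FF, FF, Finset.smul_sum, ← Finset.sum_add_distrib]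
    exact Finset.sum_congr rfl fun m _ => by rw [add_smul, mul_smul]
  have h3 : ∑ i : Fin (l + 3), ∑ j ∈ Far i, P.GG (fun m => κ (m + 1)) R j =
      ∑ j : Fin (l + 3), (l : ℝ) • P.GG (fun m => κ (m + 1)) R j := by
    rw [Finset.sum_comm' (t' := Finset.univ) (s' := fun j => Far j) (by simp [Far_symm])]
    refine Finset.sum_congr rfl fun j _ => ?_
    rw [Finset.sum_const, card_Far, Nat.cast_smul_eq_nsmul]
  simp only [Finset.sum_mul, h1, h2, FF_succ, Finset.sum_add_distrib, h3, Finset.sum_const,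
    Finset.card_univ, Fintype.card_fin]
  rw [mul_smul, ← Nat.cast_smul_eq_nsmul ℝ]
  push_cast
  abel

end PP

theorem geom_bound {l R m : ℕ} (hl : 0 < l) (hR : 2 * R ≤ l) (hm : m < R) :
    ((-1 / (l : ℝ)) ^ m) ^ 2 * ((l : ℝ) * (l + 2)) ^ m ≤ 3 := by
  have hl' : (0 : ℝ) < l := by exact_mod_cast hl
  have h1 : ((-1 / (l : ℝ)) ^ m) ^ 2 * ((l : ℝ) * (l + 2)) ^ m = (2 / l + 1) ^ m := by
    rw [← pow_mul, mul_comm m 2, pow_mul, ← mul_pow]
    congr 1
    field_simp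
    ring
  rw [h1]
  calc (2 / (l : ℝ) + 1) ^ m ≤ Real.exp (2 / l) ^ m :=
        pow_le_pow_left₀ (by positivity) (Real.add_one_le_exp _) m
    _ = Real.exp (m * (2 / l)) := (Real.exp_nat_mul _ _).symm
    _ ≤ Real.exp 1 := by
        apply Real.exp_le_exp.2
        rw [← mul_div_assoc, div_le_one hl']
        have : m * 2 ≤ l := by omega
        exact_mod_cast this
    _ ≤ 3 := Real.exp_one_lt_three.le

theorem comb {ι : Type*} (i₀ i₁ : ι) (hi : i₀ ≠ i₁) (ε : ℝ) (hε : 0 < ε) :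
    ∃ (L : ℕ) (K : RG (FreeGroup ι)), nsq K ≤ ε ∧
      nsq (Jel (FreeGroup.of i₀) (FreeGroup.of i₁) L * K - 1) ≤ ε := by
  obtain ⟨_, P, ha, hb⟩ := exists_PP i₀ i₁ hi
  obtain ⟨R, hR⟩ := exists_nat_ge (3 / ε)
  obtain ⟨l₀, hl₀⟩ := exists_nat_ge (3 * (R + 1) / ε)
  set l := l₀ + 2 * (R + 1) with hl
  have hl1 : 0 < l := by omega
  have hl' : (0 : ℝ) < l := by exact_mod_cast hl1
  have hR' : (0 : ℝ) < (R : ℝ) + 1 := by positivity
  set κ : ℕ → ℝ := fun m => 1 / (l + 3) * (-1 / (l : ℝ)) ^ m * (1 - m / (R + 1)) with hκ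
  have hκR : κ (R + 1) = 0 := by
    simp only [hκ]
    push_cast
    rw [div_self hR'.ne', sub_self, mul_zero]
  refine ⟨l + 3, P.KK l κ (R + 1) * e P.a, ?_, ?_⟩
  · rw [nsq_mul_e, P.nsq_KK]
    have h1 : ∀ m ∈ Finset.range (R + 1),
        κ m ^ 2 * ((l : ℝ) * (l + 2)) ^ m ≤ 3 / (l + 3) ^ 2 := by
      intro m hm
      have hm' := Finset.mem_range.1 hm
      have h2 := geom_bound hl1 (R := R + 1) (by omega) hm'
      have h3 : (1 - (m : ℝ) / (R + 1)) ^ 2 ≤ 1 := by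
        have h4 : (m : ℝ) / (R + 1) ≤ 1 := by
          rw [div_le_one hR']; exact_mod_cast hm'.le
        have h5 : 0 ≤ (m : ℝ) / (R + 1) := by positivity
        nlinarith
      have h6 : κ m ^ 2 * ((l : ℝ) * (l + 2)) ^ m = (1 - (m : ℝ) / (R + 1)) ^ 2 *
          (((-1 / (l : ℝ)) ^ m) ^ 2 * ((l : ℝ) * (l + 2)) ^ m) / (l + 3) ^ 2 := by
        simp only [hκ]; field_simp
      rw [h6]
      gcongr
      calc _ ≤ 1 * 3 := mul_le_mul h3 h2 (by positivity) zero_le_one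
        _ = 3 := one_mul _
    have h7 := Finset.sum_le_card_nsmul _ _ _ h1
    rw [Finset.card_range, nsmul_eq_mul] at h7
    refine (mul_le_mul_of_nonneg_left h7 (by positivity)).trans ?_
    rw [div_le_iff₀ hε] at hl₀
    have h8 : ((l : ℝ) + 3) * (((R + 1 : ℕ) : ℝ) * (3 / (l + 3) ^ 2)) = 3 * (R + 1) / (l + 3) := by
      push_cast; field_simp
    rw [h8, div_le_iff₀ (by positivity)]
    have h9 : (l₀ : ℝ) ≤ l + 3 := by
      have : l₀ ≤ l + 3 := by omega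
      exact_mod_cast this
    nlinarith
  · have hJ : Jel (FreeGroup.of i₀) (FreeGroup.of i₁) (l + 3) =
        e P.a⁻¹ * ∑ j : Fin (l + 3), e (P.T (j.val + 2)) := by
      rw [Jel, Finset.mul_sum, Finset.sum_range]
      refine Finset.sum_congr rfl fun j _ => ?_
      rw [e_mul_e, P.T_eq, inv_mul_cancel_left, ha, hb]
    have h1 : Jel (FreeGroup.of i₀) (FreeGroup.of i₁) (l + 3) * (P.KK l κ (R + 1) * e P.a) - 1 =
        e P.a⁻¹ * ((∑ j : Fin (l + 3), e (P.T (j.val + 2))) * P.KK l κ (R + 1) - 1) * e P.a := by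
      rw [hJ, mul_sub, sub_mul, mul_one, e_mul_e, inv_mul_cancel, e_one]
      simp only [mul_assoc]
    have h2 : ((l : ℝ) + 3) * κ 0 = 1 := by
      simp only [hκ]
      field_simp
      simp
    rw [h1, nsq_mul_e, nsq_e_mul, P.J_mul_KK κ R hκR, h2, one_smul, add_sub_cancel_left,
      P.nsq_sum_GG (P.nsq_FF _ _), Finset.card_univ, Fintype.card_fin]
    have h3 : ∀ m ∈ Finset.range (R + 1), (κ m + l * κ (m + 1)) ^ 2 * ((l : ℝ) * (l + 2)) ^ m ≤
        3 / ((l + 3) ^ 2 * (R + 1) ^ 2) := by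
      intro m hm
      have h4 := geom_bound hl1 (R := R + 1) (by omega) (Finset.mem_range.1 hm)
      have h5 : κ m + l * κ (m + 1) = (-1 / (l : ℝ)) ^ m / ((l + 3) * (R + 1)) := by
        simp only [hκ, pow_succ]
        push_cast
        field_simp
        ring
      rw [h5, div_pow _ (((l : ℝ) + 3) * (R + 1)), div_mul_eq_mul_div, mul_pow ((l : ℝ) + 3)]
      gcongr
    have h7 := Finset.sum_le_card_nsmul _ _ _ h3
    rw [Finset.card_range, nsmul_eq_mul] at h7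
    refine (mul_le_mul_of_nonneg_left (mul_le_mul_of_nonneg_left h7 (by positivity))
      (by positivity)).trans ?_
    rw [div_le_iff₀ hε] at hR
    have h8 : (((l + 3 : ℕ) : ℝ)) * (((l : ℝ) + 2) * (((R + 1 : ℕ) : ℝ) *
        (3 / ((l + 3) ^ 2 * (R + 1) ^ 2)))) = 3 * (l + 2) / ((l + 3) * (R + 1)) := by
      push_cast; field_simp
    rw [h8, div_le_iff₀ (by positivity)]
    nlinarith [mul_nonneg hl'.le hε.le, mul_le_mul_of_nonneg_left hR hl'.le]

end Crest.Agent.R134
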