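import Crest.Agent.R134.Defs

/-! Row 134: derivations of the group algebra of a free group. -/

set_option autoImplicit false
set_option linter.unusedSectionVars false

namespace Crest.Agent.R134

namespace DerAux

section General

variable {G : Type*} [Group G] {X : RG G →ₗ[ℝ] RG G}

theorem e_inv_mul (g : G) : (e g⁻¹ : RG G) * e g = 1 := by rw [e_mul_e, inv_mul_cancel, e_one]

theorem e_mul_inv (g : G) : (e g : RG G) * e g⁻¹ = 1 := by rw [e_mul_e, mul_inv_cancel, e_one]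

theorem single_eq (g : G) (c : ℝ) : (MonoidAlgebra.single g c : RG G) = c • e g := by simp

theorem X_mul (hX : IsDer X) (g h : G) : X (e (g * h)) = X (e g) * e h + e g * X (e h) := by
  rw [← e_mul_e, hX]

theorem X_one (hX : IsDer X) : X (e 1) = 0 := hX.map_one

theorem X_inv (hX : IsDer X) (g : G) : X (e g⁻¹) = -(e g⁻¹ * X (e g) * e g⁻¹) := by
  have h1 := X_mul hX g⁻¹ g
  rw [inv_mul_cancel, X_one hX] at h1
  have h2 : X (e g⁻¹) * e g = -(e g⁻¹ * X (e g)) := eq_neg_of_add_eq_zero_left h1.symm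
  calc X (e g⁻¹) = X (e g⁻¹) * e g * e g⁻¹ := by rw [mul_assoc, e_mul_inv, mul_one]
    _ = _ := by rw [h2, neg_mul]

theorem X_zpow (hX : IsDer X) {c : G} (hc : X (e c) = 0) (m : ℤ) : X (e (c ^ m)) = 0 := by
  induction m using Int.induction_on with
  | zero => rw [zpow_zero, X_one hX]
  | succ n ih => rw [zpow_add_one, X_mul hX, ih, hc]; simp
  | pred n ih => rw [zpow_sub_one, X_mul hX, ih, X_inv hX, hc]; simp

theorem tr_comm (hX : IsDer X) (g h : G) :
    (X (e (g * h))).coeff 1 = (X (e (h * g))).coeff 1 := by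
  rw [X_mul hX, X_mul hX, MonoidAlgebra.coeff_add, MonoidAlgebra.coeff_add, Finsupp.add_apply,
    Finsupp.add_apply, coeff_one_mul_comm (X (e g)), coeff_one_mul_comm (e g), add_comm]

theorem tr_conj (hX : IsDer X) {g h : G} (H : IsConj g h) :
    (X (e g)).coeff 1 = (X (e h)).coeff 1 := by
  obtain ⟨k, rfl⟩ := isConj_iff.1 H
  rw [tr_comm hX (k * g), inv_mul_cancel_left]

theorem coeff_add_ne {y z : RG G} {g : G} (h : (y + z).coeff g ≠ 0) :
    y.coeff g ≠ 0 ∨ z.coeff g ≠ 0 := by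
  by_contra hh
  push Not at hh
  simp [hh.1, hh.2] at h

theorem coeff_neg_ne {y : RG G} {g : G} (h : (-y).coeff g ≠ 0) : y.coeff g ≠ 0 := by
  simpa using h

theorem n1_neg (y : RG G) : n1 (-y) = n1 y := by
  simpa using n1_smul (-1) y

end General

section Ex

variable {ι : Type*}

/-- the unit of the trivial square-zero extension attached to a generator -/
noncomputable def un (z : ι → RG (FreeGroup ι)) (i : ι) :
    (TrivSqZeroExt (RG (FreeGroup ι)) (RG (FreeGroup ι)))ˣ where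
  val := (e (FreeGroup.of i), e (FreeGroup.of i) * z i)
  inv := (e (FreeGroup.of i)⁻¹, -(z i * e (FreeGroup.of i)⁻¹))
  val_inv := by
    refine TrivSqZeroExt.ext ?_ ?_
    · rw [TrivSqZeroExt.fst_mul]
      exact e_mul_inv _
    · rw [TrivSqZeroExt.snd_mul]
      change e (FreeGroup.of i) * -(z i * e (FreeGroup.of i)⁻¹) +
        e (FreeGroup.of i) * z i * e (FreeGroup.of i)⁻¹ = 0
      rw [mul_neg, mul_assoc, neg_add_cancel]
  inv_val := by
    refine TrivSqZeroExt.ext ?_ ?_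
    · rw [TrivSqZeroExt.fst_mul]
      exact e_inv_mul _
    · rw [TrivSqZeroExt.snd_mul]
      change e (FreeGroup.of i)⁻¹ * (e (FreeGroup.of i) * z i) +
        -(z i * e (FreeGroup.of i)⁻¹) * e (FreeGroup.of i) = 0
      rw [← mul_assoc, e_inv_mul, one_mul, neg_mul, mul_assoc, e_inv_mul, mul_one, add_neg_cancel]

theorem un_fst (z : ι → RG (FreeGroup ι)) (g : FreeGroup ι) :
    (FreeGroup.lift (un z) g).val.fst = e g := by
  induction g using FreeGroup.induction_on with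
  | C1 => rw [map_one]; rfl
  | of i => rw [FreeGroup.lift_apply_of]; rfl
  | inv_of i _ => rw [map_inv, FreeGroup.lift_apply_of]; rfl
  | mul g h hg hh => rw [map_mul, Units.val_mul, TrivSqZeroExt.fst_mul, hg, hh, e_mul_e]

/-- the cocycle -/
noncomputable def cocyc (z : ι → RG (FreeGroup ι)) (g : FreeGroup ι) : RG (FreeGroup ι) :=
  (FreeGroup.lift (un z) g).val.snd

theorem cocyc_mul (z : ι → RG (FreeGroup ι)) (g h : FreeGroup ι) :
    cocyc z (g * h) = cocyc z g * e h + e g * cocyc z h := by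
  rw [cocyc, map_mul, Units.val_mul, TrivSqZeroExt.snd_mul, un_fst, un_fst, add_comm]
  rfl

theorem cocyc_of (z : ι → RG (FreeGroup ι)) (i : ι) :
    cocyc z (FreeGroup.of i) = e (FreeGroup.of i) * z i := by
  rw [cocyc, FreeGroup.lift_apply_of]; rfl

end Ex

section Growth

variable {ι : Type*} [DecidableEq ι]

/-- supported in the ball of radius `m` -/
def Sup (m : ℕ) (y : RG (FreeGroup ι)) : Prop := ∀ g, y.coeff g ≠ 0 → FreeGroup.norm g ≤ m

theorem exists_sup (y : RG (FreeGroup ι)) : ∃ m, Sup m y :=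
  ⟨y.coeff.support.sup FreeGroup.norm, fun _ hg =>
    Finset.le_sup (f := FreeGroup.norm) (Finsupp.mem_support_iff.2 hg)⟩

theorem Sup.mono {m m' : ℕ} {y : RG (FreeGroup ι)} (h : Sup m y) (hm : m ≤ m') : Sup m' y :=
  fun g hg => (h g hg).trans hm

theorem Sup.add {m : ℕ} {y z : RG (FreeGroup ι)} (h : Sup m y) (h' : Sup m z) : Sup m (y + z) :=
  fun g hg => (coeff_add_ne hg).elim (h g) (h' g)

theorem Sup.neg {m : ℕ} {y : RG (FreeGroup ι)} (h : Sup m y) : Sup m (-y) :=
  fun g hg => h g (coeff_neg_ne hg)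

theorem Sup.zero (m : ℕ) : Sup m (0 : RG (FreeGroup ι)) := fun g hg => by simp at hg

theorem Sup.smul {m : ℕ} {y : RG (FreeGroup ι)} (h : Sup m y) (c : ℝ) : Sup m (c • y) :=
  fun g hg => h g fun h0 => hg (by simp [h0])

theorem Sup.sum {κ : Type*} {m : ℕ} (s : Finset κ) (f : κ → RG (FreeGroup ι))
    (h : ∀ i ∈ s, Sup m (f i)) : Sup m (∑ i ∈ s, f i) :=
  Finset.sum_induction f (Sup m) (fun _ _ => Sup.add) (Sup.zero m) h

theorem Sup.e_mul {m : ℕ} {y : RG (FreeGroup ι)} (h : Sup m y) (k : FreeGroup ι) :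
    Sup (FreeGroup.norm k + m) (e k * y) := by
  intro g hg
  rw [coeff_e_mul] at hg
  have h1 := h _ hg
  have h2 := FreeGroup.norm_mul_le k (k⁻¹ * g)
  rw [mul_inv_cancel_left] at h2
  omega

theorem Sup.mul_e {m : ℕ} {y : RG (FreeGroup ι)} (h : Sup m y) (k : FreeGroup ι) :
    Sup (m + FreeGroup.norm k) (y * e k) := by
  intro g hg
  rw [coeff_mul_e] at hg
  have h1 := h _ hg
  have h2 := FreeGroup.norm_mul_le (g * k⁻¹) k
  rw [inv_mul_cancel_right] at h2
  omega

variable {z : ι → RG (FreeGroup ι)} {X : RG (FreeGroup ι) →ₗ[ℝ] RG (FreeGroup ι)}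

theorem letter (hX : IsDer X) (hz : ∀ i, X (e (FreeGroup.of i)) = e (FreeGroup.of i) * z i)
    {c : ℝ} {d : ℕ} (hc : ∀ i, n1 (z i) ≤ c) (hd : ∀ i, Sup d (z i)) (x : ι × Bool) :
    FreeGroup.norm (FreeGroup.mk [x]) = 1 ∧ n1 (X (e (FreeGroup.mk [x]))) ≤ c ∧
      Sup (1 + d) (X (e (FreeGroup.mk [x]))) := by
  obtain ⟨i, b⟩ := x
  cases b
  · have h0 : FreeGroup.mk [(i, false)] = (FreeGroup.of i)⁻¹ := rfl
    have h1 : X (e (FreeGroup.of i)⁻¹) = -(z i * e (FreeGroup.of i)⁻¹) := by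
      rw [X_inv hX, hz, ← mul_assoc, e_inv_mul, one_mul]
    rw [h0, h1, n1_neg, n1_mul_e]
    refine ⟨by simp, hc i, (((hd i).mul_e _).mono ?_).neg⟩
    simp [add_comm]
  · have h0 : FreeGroup.mk [(i, true)] = FreeGroup.of i := rfl
    rw [h0, hz, n1_e_mul]
    refine ⟨by simp, hc i, ((hd i).e_mul _).mono ?_⟩
    simp

theorem word (hX : IsDer X) (hz : ∀ i, X (e (FreeGroup.of i)) = e (FreeGroup.of i) * z i)
    {c : ℝ} {d : ℕ} (hc : ∀ i, n1 (z i) ≤ c) (hd : ∀ i, Sup d (z i)) (w : List (ι × Bool)) :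
    n1 (X (e (FreeGroup.mk w))) ≤ c * w.length ∧ Sup (w.length + d) (X (e (FreeGroup.mk w))) := by
  induction w with
  | nil =>
    have h0 : FreeGroup.mk ([] : List (ι × Bool)) = 1 := rfl
    rw [h0, X_one hX]
    exact ⟨by simp, Sup.zero _⟩
  | cons x w ih =>
    have h0 : FreeGroup.mk (x :: w) = FreeGroup.mk [x] * FreeGroup.mk w := rfl
    obtain ⟨l1, l2, l3⟩ := letter hX hz hc hd x
    have l4 : FreeGroup.norm (FreeGroup.mk w) ≤ w.length := FreeGroup.norm_mk_le
    rw [h0, X_mul hX, List.length_cons]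
    refine ⟨(n1_add_le _ _).trans ?_, ((l3.mul_e _).mono (by omega)).add
      ((ih.2.e_mul _).mono (by omega))⟩
    rw [n1_mul_e, n1_e_mul]
    push_cast
    linarith [ih.1]

theorem elem (hX : IsDer X) (hz : ∀ i, X (e (FreeGroup.of i)) = e (FreeGroup.of i) * z i)
    {c : ℝ} {d : ℕ} (hc : ∀ i, n1 (z i) ≤ c) (hd : ∀ i, Sup d (z i)) (g : FreeGroup ι) :
    n1 (X (e g)) ≤ c * FreeGroup.norm g ∧ Sup (FreeGroup.norm g + d) (X (e g)) := by
  have := word hX hz hc hd g.toWord
  rwa [FreeGroup.mk_toWord] at this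

theorem one_step (hX : IsDer X) (hz : ∀ i, X (e (FreeGroup.of i)) = e (FreeGroup.of i) * z i)
    {c : ℝ} {d : ℕ} (hc0 : 0 ≤ c) (hc : ∀ i, n1 (z i) ≤ c) (hd : ∀ i, Sup d (z i)) {m : ℕ}
    {y : RG (FreeGroup ι)} (hy : Sup m y) :
    n1 (X y) ≤ c * m * n1 y ∧ Sup (m + d) (X y) := by
  have h0 : X y = ∑ g ∈ y.coeff.support, y.coeff g • X (e g) := by
    conv_lhs => rw [eq_sum_smul_e y, map_sum]
    simp only [map_smul]
  rw [h0]
  constructor
  · refine (n1_sum_le _ _).trans ?_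
    rw [n1_eq y subset_rfl, Finset.mul_sum]
    refine Finset.sum_le_sum fun g hg => ?_
    rw [n1_smul, mul_comm]
    refine mul_le_mul_of_nonneg_right ((elem hX hz hc hd g).1.trans ?_) (abs_nonneg _)
    exact mul_le_mul_of_nonneg_left (by exact_mod_cast hy g (Finsupp.mem_support_iff.1 hg)) hc0
  · refine Sup.sum _ _ fun g hg => Sup.smul ((elem hX hz hc hd g).2.mono ?_) _
    have := hy g (Finsupp.mem_support_iff.1 hg)
    omega

theorem iter (hX : IsDer X) (hz : ∀ i, X (e (FreeGroup.of i)) = e (FreeGroup.of i) * z i)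
    {c : ℝ} {d : ℕ} (hc0 : 0 ≤ c) (hd1 : 1 ≤ d) (hc : ∀ i, n1 (z i) ≤ c) (hd : ∀ i, Sup d (z i))
    {m : ℕ} {y : RG (FreeGroup ι)} (hy : Sup m y) (n : ℕ) :
    n1 ((X ^ n) y) ≤ (c * d) ^ n * ((m + n).choose n * n.factorial) * n1 y ∧
      Sup (m + n * d) ((X ^ n) y) := by
  induction n with
  | zero => simpa using hy
  | succ n ih =>
    obtain ⟨h1, h2⟩ := one_step hX hz hc0 hc hd ih.2
    rw [pow_succ', Module.End.mul_apply]
    refine ⟨h1.trans ?_, h2.mono (by rw [add_mul]; omega)⟩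
    have h3 : ((m + n * d : ℕ) : ℝ) ≤ d * (m + n + 1 : ℕ) := by
      have : m + n * d ≤ d * (m + n + 1) := by nlinarith
      exact_mod_cast this
    have h4 : (((m + (n + 1)).choose (n + 1) : ℕ) : ℝ) * ((n + 1).factorial : ℕ) =
        (m + n + 1 : ℕ) * (((m + n).choose n : ℕ) * (n.factorial : ℕ)) := by
      have := Nat.add_one_mul_choose_eq (m + n) n
      have h5 : (m + (n + 1)).choose (n + 1) * (n + 1).factorial =
          (m + n + 1) * ((m + n).choose n * n.factorial) := by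
        rw [← mul_assoc, this, Nat.factorial_succ, ← add_assoc]; ring
      exact_mod_cast h5
    rw [h4]
    have h6 := n1_nonneg y
    calc c * ((m + n * d : ℕ) : ℝ) * n1 ((X ^ n) y)
        ≤ c * (d * (m + n + 1 : ℕ)) * ((c * d) ^ n * ((m + n).choose n * n.factorial) * n1 y) :=
          mul_le_mul (mul_le_mul_of_nonneg_left h3 hc0) ih.1 (n1_nonneg _) (by positivity)
      _ = _ := by ring

end Growth

end DerAux

open DerAux

/-- Sketch. Use `TrivSqZeroExt (RG G) (RG G)` (or upper triangular 2×2 matrices): the elements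
`(e (of i), e (of i) * z i)` are units (inverse `(e (of i)⁻¹, -(z i * e (of i)⁻¹))`); `FreeGroup.lift` gives
`G →* (…)ˣ`, `MonoidAlgebra.lift` an `ℝ`-algebra map `F`; `fst ∘ F = id`; `X = snd ∘ F`. -/
theorem exists_der {ι : Type*} (z : ι → RG (FreeGroup ι)) :
    ∃ X : RG (FreeGroup ι) →ₗ[ℝ] RG (FreeGroup ι), IsDer X ∧
      ∀ i, X (e (FreeGroup.of i)) = e (FreeGroup.of i) * z i := by
  let X : RG (FreeGroup ι) →ₗ[ℝ] RG (FreeGroup ι) :=
    (Finsupp.linearCombination ℝ (cocyc z)) ∘ₗ (MonoidAlgebra.coeffLinearEquiv ℝ).toLinearMap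
  have h1 : ∀ g r, X (MonoidAlgebra.single g r) = r • cocyc z g := fun g r => by simp [X]
  refine ⟨X, fun y w => ?_, fun i => by rw [h1, one_smul, cocyc_of]⟩
  induction y using MonoidAlgebra.induction_linear with
  | zero => simp
  | add a b ha hb => simp only [add_mul, map_add, ha, hb]; abel
  | single g r =>
    induction w using MonoidAlgebra.induction_linear with
    | zero => simp
    | add a b ha hb => simp only [mul_add, map_add, ha, hb]; abel
    | single h s =>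
      rw [MonoidAlgebra.single_mul_single, h1, h1, h1, cocyc_mul, single_eq g, single_eq h]
      simp only [smul_add, smul_mul_assoc, mul_smul_comm, smul_smul, mul_comm s r]

/-- Sketch. `ℓ = FreeGroup.norm` (classical `DecidableEq`).  Let `c ≥ n1 (z i)` for all `i` and `d ≥ 1` bound
`ℓ` on the supports of the `z i`.  By induction on a word list `w`: `n1 (X (e (mk w))) ≤ c * w.length` and
the support of `X (e (mk w))` has `ℓ ≤ w.length + d` (`X (e g⁻¹) = -(e g⁻¹ * X (e g) * e g⁻¹)`).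
So if `y` is supported in `ℓ ≤ m` then `X y` is supported in `ℓ ≤ m + d` and `n1 (X y) ≤ c m n1 y`; thus
`n1 (Xⁿ y) ≤ cⁿ ∏_{k<n} (m + k d) n1 y ≤ (c d)ⁿ (m+n)!/m! · n1 y ≤ (2 c d)ⁿ 2^m n! n1 y`. -/
theorem der_growth {ι : Type*} [Finite ι] (z : ι → RG (FreeGroup ι))
    (X : RG (FreeGroup ι) →ₗ[ℝ] RG (FreeGroup ι)) (hX : IsDer X)
    (hz : ∀ i, X (e (FreeGroup.of i)) = e (FreeGroup.of i) * z i) : Growth X n1 := by
  classical
  obtain ⟨c₀, hc₀⟩ := (Set.finite_range fun i => n1 (z i)).bddAbove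
  choose d₀ hd₀ using fun i => exists_sup (z i)
  obtain ⟨d₁, hd₁⟩ := (Set.finite_range d₀).bddAbove
  have hc : ∀ i, n1 (z i) ≤ max c₀ 1 := fun i => (hc₀ ⟨i, rfl⟩).trans (le_max_left _ _)
  have hd : ∀ i, Sup (max d₁ 1) (z i) := fun i =>
    (hd₀ i).mono ((hd₁ ⟨i, rfl⟩).trans (le_max_left _ _))
  have hc1 : (1 : ℝ) ≤ max c₀ 1 := le_max_right _ _
  have hd1 : 1 ≤ max d₁ 1 := le_max_right _ _
  generalize max c₀ 1 = c at hc hc1
  generalize max d₁ 1 = d at hd hd1
  have hd2 : (1 : ℝ) ≤ d := by exact_mod_cast hd1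
  refine ⟨2 * (c * d), by positivity, fun y => ?_⟩
  obtain ⟨m, hm⟩ := exists_sup y
  refine ⟨2 ^ m * n1 y, fun n => (iter hX hz (by linarith) hd1 hc hd hm n).1.trans ?_⟩
  have h1 : (((m + n).choose n : ℕ) : ℝ) ≤ 2 ^ m * 2 ^ n := by
    rw [← pow_add]
    exact_mod_cast Nat.choose_le_two_pow (m + n) n
  have h6 := n1_nonneg y
  calc (c * d) ^ n * (((m + n).choose n : ℕ) * (n.factorial : ℝ)) * n1 y
      ≤ (c * d) ^ n * ((2 ^ m * 2 ^ n) * (n.factorial : ℝ)) * n1 y := by gcongr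
    _ = _ := by rw [mul_pow 2]; ring

/-- Sketch. By linearity reduce to `y = e g`; `FreeGroup.induction_on`, `sta_mul`. -/
theorem der_sta {ι : Type*} (z : ι → RG (FreeGroup ι))
    (X : RG (FreeGroup ι) →ₗ[ℝ] RG (FreeGroup ι)) (hX : IsDer X)
    (hz : ∀ i, X (e (FreeGroup.of i)) = e (FreeGroup.of i) * z i)
    (hs : ∀ i, sta (z i) = -z i) (y : RG (FreeGroup ι)) : X (sta y) = sta (X y) := by
  have key : ∀ g : FreeGroup ι, X (e g⁻¹) = sta (X (e g)) := by
    intro g
    induction g using FreeGroup.induction_on with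
    | C1 => rw [inv_one, X_one hX, map_zero]
    | of i =>
      rw [X_inv hX, hz, sta_mul, hs, sta_single, ← mul_assoc, e_inv_mul, one_mul, neg_mul]
    | inv_of i _ =>
      rw [inv_inv, X_inv hX, hz, ← mul_assoc, e_inv_mul, one_mul, map_neg, sta_mul, hs, sta_single,
        inv_inv, mul_neg, neg_neg]
    | mul g h hg hh =>
      rw [mul_inv_rev, X_mul hX, X_mul hX, hg, hh, map_add, sta_mul, sta_mul, sta_single,
        sta_single, add_comm]
  induction y using MonoidAlgebra.induction_linear with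
  | zero => simp
  | add a b ha hb => simp only [map_add, ha, hb]
  | single g r =>
    rw [sta_single, single_eq g, single_eq g⁻¹, map_smul, map_smul, map_smul, key]

/-- Sketch. By linearity reduce to `y = e g`.  Let `S = {x | ∃ m : ℤ, IsConj (c ^ m) x}` (conjugation and
inversion invariant).  By `FreeGroup.induction_on`, `X (e g) * e g⁻¹` is supported in `S`
(`MonoidAlgebra.supported`).  Its coefficient at `g⁻¹` is `(X (e g)).coeff 1`; if nonzero, `g` is conjugate to
some `c ^ m`.  `g ↦ (X (e g)).coeff 1` is a class function (`coeff_one_mul_comm`, `X 1 = 0`) and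
`X (e (c ^ m)) = 0`. -/
theorem der_trace {ι : Type*} (z : ι → RG (FreeGroup ι))
    (X : RG (FreeGroup ι) →ₗ[ℝ] RG (FreeGroup ι)) (hX : IsDer X)
    (hz : ∀ i, X (e (FreeGroup.of i)) = e (FreeGroup.of i) * z i)
    (c : FreeGroup ι) (hc : X (e c) = 0)
    (hsupp : ∀ i g, (z i).coeff g ≠ 0 → ∃ m : ℤ, IsConj (c ^ m) g)
    (y : RG (FreeGroup ι)) : (X y).coeff 1 = 0 := by
  have conj : ∀ (k : FreeGroup ι) (w : RG (FreeGroup ι)),
      (∀ g, w.coeff g ≠ 0 → ∃ m : ℤ, IsConj (c ^ m) g) →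
      ∀ g, (e k * w * e k⁻¹).coeff g ≠ 0 → ∃ m : ℤ, IsConj (c ^ m) g := by
    intro k w hw g hg
    rw [coeff_mul_e, coeff_e_mul] at hg
    obtain ⟨m, hm⟩ := hw _ hg
    exact ⟨m, hm.trans (isConj_iff.2 ⟨k, by group⟩)⟩
  have key : ∀ k : FreeGroup ι, ∀ g, (X (e k) * e k⁻¹).coeff g ≠ 0 →
      ∃ m : ℤ, IsConj (c ^ m) g := by
    intro k
    induction k using FreeGroup.induction_on with
    | C1 => intro g hg; rw [X_one hX] at hg; simp at hg
    | of i => rw [hz]; exact conj _ _ (hsupp i)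
    | inv_of i _ =>
      intro g hg
      rw [inv_inv, X_inv hX, hz, ← mul_assoc, e_inv_mul, one_mul, neg_mul, mul_assoc, e_inv_mul,
        mul_one] at hg
      exact hsupp i g (coeff_neg_ne hg)
    | mul k h hk hh =>
      intro g hg
      have h1 : X (e (k * h)) * e (k * h)⁻¹ =
          X (e k) * e k⁻¹ + e k * (X (e h) * e h⁻¹) * e k⁻¹ := by
        rw [X_mul hX, mul_inv_rev, ← e_mul_e, add_mul, mul_assoc (X (e k)), ← mul_assoc (e h),
          e_mul_inv, one_mul]
        simp only [mul_assoc]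
      rw [h1] at hg
      exact (coeff_add_ne hg).elim (hk g) (conj _ _ hh g)
  have key2 : ∀ k : FreeGroup ι, (X (e k)).coeff 1 = 0 := by
    intro k
    by_contra h0
    obtain ⟨m, hm⟩ := key k k⁻¹ (by rwa [coeff_mul_e, inv_inv, inv_mul_cancel])
    have h1 : IsConj (c ^ (-m)) k := by
      obtain ⟨t, ht⟩ := isConj_iff.1 hm
      refine isConj_iff.2 ⟨t, ?_⟩
      rw [← inv_inv k, ← ht]
      group
    rw [← tr_conj hX h1, X_zpow hX hc] at h0
    simp at h0
  induction y using MonoidAlgebra.induction_linear with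
  | zero => simp
  | add a b ha hb => simp [ha, hb]
  | single g r =>
    rw [single_eq, map_smul, MonoidAlgebra.coeff_smul, Finsupp.smul_apply, key2, smul_zero]

end Crest.Agent.R134
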