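import Crest.Agent.R134.Defs

/-! Row 134: the short-time flow `E = P ∘ exp (t X)` of a derivation with analytic growth. -/

set_option autoImplicit false

namespace Crest.Agent.R134

open Finset in
/-- iterated Leibniz rule -/
theorem IsDer.pow_mul {A : Type*} [Ring A] [Algebra ℝ A] {X : A →ₗ[ℝ] A} (hX : IsDer X)
    (y z : A) (n : ℕ) :
    (X ^ n) (y * z) = ∑ p ∈ antidiagonal n, n.choose p.1 • ((X ^ p.1) y * (X ^ p.2) z) := by
  induction n with
  | zero => simp
  | succ n ih =>
    rw [pow_succ', Module.End.mul_apply, ih, map_sum,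
      Finset.sum_antidiagonal_choose_succ_nsmul (fun i j => (X ^ i) y * (X ^ j) z) n,
      ← Finset.sum_add_distrib]
    refine Finset.sum_congr rfl fun p hp => ?_
    have hc : n.choose p.2 = n.choose p.1 := by
      rw [HasAntidiagonal.mem_antidiagonal] at hp
      exact Nat.choose_symm_of_eq_add (by omega)
    rw [map_nsmul, hX, hc, smul_add, add_comm, pow_succ', pow_succ', Module.End.mul_apply,
      Module.End.mul_apply]

theorem coef_mul (s t : ℝ) (i j : ℕ) :
    s ^ i / i.factorial * (t ^ j / j.factorial) =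
      ((i + j).choose i : ℝ) * (s ^ i * t ^ j) / (i + j).factorial := by
  have h : ((i + j).choose i : ℝ) * i.factorial * j.factorial = (i + j).factorial := by
    have := Nat.add_choose_mul_factorial_mul_factorial j i
    rw [add_comm j i] at this
    have h2 : (i + j).choose i * i.factorial * j.factorial = (i + j).factorial := by
      rw [← this]; ring
    exact_mod_cast h2
  have h1 : (i.factorial : ℝ) ≠ 0 := by positivity
  have h2 : (j.factorial : ℝ) ≠ 0 := by positivity
  have h3 : ((i + j).choose i : ℝ) ≠ 0 := by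
    have := Nat.choose_pos (n := i + j) (k := i) (by omega)
    positivity
  rw [← h]; field_simp

section Series

variable {A B : Type*} [Ring A] [Algebra ℝ A] [NormedRing B] [NormedAlgebra ℝ B]

/-- the terms of the exponential series -/
noncomputable def fterm (X : A →ₗ[ℝ] A) (P : A →ₐ[ℝ] B) (t : ℝ) (y : A) (n : ℕ) : B :=
  (t ^ n / n.factorial) • P ((X ^ n) y)

theorem fterm_norm_le {X : A →ₗ[ℝ] A} {P : A →ₐ[ℝ] B} {ρ : ℝ} {C : A → ℝ}
    (h : ∀ y n, ‖P ((X ^ n) y)‖ ≤ C y * ρ ^ n * n.factorial) {t : ℝ} (ht : 0 ≤ t) (y : A) (n : ℕ) :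
    ‖fterm X P t y n‖ ≤ C y * (t * ρ) ^ n := by
  have h1 : (0 : ℝ) < n.factorial := by positivity
  rw [fterm, norm_smul, Real.norm_eq_abs, abs_of_nonneg (by positivity)]
  calc t ^ n / n.factorial * ‖P ((X ^ n) y)‖
      ≤ t ^ n / n.factorial * (C y * ρ ^ n * n.factorial) :=
        mul_le_mul_of_nonneg_left (h y n) (by positivity)
    _ = C y * (t * ρ) ^ n := by rw [mul_pow]; field_simp

theorem fterm_summable_norm {X : A →ₗ[ℝ] A} {P : A →ₐ[ℝ] B} {ρ : ℝ} {C : A → ℝ}
    (h : ∀ y n, ‖P ((X ^ n) y)‖ ≤ C y * ρ ^ n * n.factorial) {t : ℝ} (ht : 0 ≤ t)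
    (hρ : 0 < ρ) (htρ : t * ρ ≤ 1 / 4) (y : A) :
    Summable fun n => ‖fterm X P t y n‖ :=
  Summable.of_nonneg_of_le (fun _ => norm_nonneg _) (fterm_norm_le h ht y)
    ((summable_geometric_of_lt_one (by positivity) (by linarith)).mul_left _)

open Finset in
theorem fterm_mul {X : A →ₗ[ℝ] A} (hX : IsDer X) (P : A →ₐ[ℝ] B) (t : ℝ) (y z : A) (n : ℕ) :
    fterm X P t (y * z) n = ∑ p ∈ antidiagonal n, fterm X P t y p.1 * fterm X P t z p.2 := by
  rw [fterm, hX.pow_mul, map_sum, Finset.smul_sum]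
  refine Finset.sum_congr rfl fun p hp => ?_
  rw [HasAntidiagonal.mem_antidiagonal] at hp
  rw [fterm, fterm, smul_mul_smul_comm, coef_mul, map_nsmul, map_mul, ← Nat.cast_smul_eq_nsmul ℝ,
    smul_smul, hp, ← pow_add, hp]
  congr 1; ring

variable [CompleteSpace B]

/-- the flow as an algebra homomorphism -/
noncomputable def flowHom {X : A →ₗ[ℝ] A} (hX : IsDer X) (P : A →ₐ[ℝ] B) (t : ℝ)
    (hs : ∀ y, Summable fun n => ‖fterm X P t y n‖) : A →ₐ[ℝ] B :=
  AlgHom.ofLinearMap
    { toFun := fun y => ∑' n, fterm X P t y n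
      map_add' := fun y z => by
        rw [← (hs y).of_norm.tsum_add (hs z).of_norm]
        exact tsum_congr fun n => by simp [fterm]
      map_smul' := fun c y => by
        rw [RingHom.id_apply, ← (hs y).of_norm.tsum_const_smul c]
        exact tsum_congr fun n => by simp [fterm, smul_comm c] }
    (by
      change ∑' n, fterm X P t 1 n = 1
      rw [tsum_eq_single 0]
      · simp [fterm]
      · intro n hn
        obtain ⟨k, rfl⟩ := Nat.exists_eq_succ_of_ne_zero hn
        simp [fterm, pow_succ, hX.map_one])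
    (fun y z => by
      change ∑' n, fterm X P t (y * z) n = (∑' n, fterm X P t y n) * ∑' n, fterm X P t z n
      rw [tsum_mul_tsum_eq_tsum_sum_antidiagonal_of_summable_norm (hs y) (hs z)]
      exact tsum_congr fun n => fterm_mul hX P t y z n)

theorem flowHom_hasSum {X : A →ₗ[ℝ] A} (hX : IsDer X) (P : A →ₐ[ℝ] B) (t : ℝ)
    (hs : ∀ y, Summable fun n => ‖fterm X P t y n‖) (y : A) :
    HasSum (fterm X P t y) (flowHom hX P t hs y) :=
  (hs y).of_norm.hasSum

omit [CompleteSpace B] in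
theorem mem_closure_range_of_hasSum (Q : A →ₐ[ℝ] B) (u : ℕ → A) {b : B}
    (h : HasSum (fun n => Q (u n)) b) : b ∈ closure (Set.range Q) :=
  mem_closure_of_tendsto h.tendsto_sum_nat
    (Filter.Eventually.of_forall fun n => ⟨∑ i ∈ Finset.range n, u i, by rw [map_sum]⟩)

open Finset in
theorem flow_inv {X : A →ₗ[ℝ] A} (hX : IsDer X) {P : A →ₐ[ℝ] B} {ρ : ℝ} {C : A → ℝ}
    (h : ∀ y n, ‖P ((X ^ n) y)‖ ≤ C y * ρ ^ n * n.factorial) {t : ℝ} (ht : 0 ≤ t)
    (hρ : 0 < ρ) (htρ : t * ρ ≤ 1 / 4)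
    (hs : ∀ y, Summable fun n => ‖fterm X P t y n‖) (y : A) :
    HasSum (fun m : ℕ => flowHom hX P t hs (((-t) ^ m / m.factorial) • (X ^ m) y)) (P y) := by
  have hC : 0 ≤ C y := by
    have := (norm_nonneg _).trans (h y 0)
    simpa using this
  set f : ℕ × ℕ → B := fun p =>
    ((-t) ^ p.1 / p.1.factorial * (t ^ p.2 / p.2.factorial)) • P ((X ^ (p.1 + p.2)) y) with hf
  have hq0 : 0 ≤ 2 * (t * ρ) := by positivity
  have hq1 : 2 * (t * ρ) < 1 := by linarith
  have hgeo : Summable fun n : ℕ => (2 * (t * ρ)) ^ n := summable_geometric_of_lt_one hq0 hq1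
  have hbound : ∀ p : ℕ × ℕ, ‖f p‖ ≤ C y * ((2 * (t * ρ)) ^ p.1 * (2 * (t * ρ)) ^ p.2) := by
    rintro ⟨i, j⟩
    have h1 : (0 : ℝ) < (i + j).factorial := by positivity
    have h2 : ((i + j).choose i : ℝ) ≤ 2 ^ (i + j) := by exact_mod_cast Nat.choose_le_two_pow _ _
    simp only [hf]
    rw [coef_mul, norm_smul, Real.norm_eq_abs, abs_div, abs_mul, abs_mul, abs_pow, abs_pow, abs_neg,
      abs_of_nonneg ht, Nat.abs_cast, Nat.abs_cast]
    calc ((i + j).choose i : ℝ) * (t ^ i * t ^ j) / (i + j).factorial * ‖P ((X ^ (i + j)) y)‖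
        ≤ 2 ^ (i + j) * (t ^ i * t ^ j) / (i + j).factorial *
            (C y * ρ ^ (i + j) * (i + j).factorial) := by
          refine mul_le_mul ?_ (h y _) (norm_nonneg _) (by positivity)
          gcongr
      _ = C y * ((2 * (t * ρ)) ^ i * (2 * (t * ρ)) ^ j) := by
          simp only [mul_pow, pow_add]; field_simp
  have hsum : Summable f :=
    Summable.of_norm_bounded
      ((hgeo.mul_of_nonneg hgeo (fun _ => by positivity) (fun _ => by positivity)).mul_left (C y))
      hbound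
  -- antidiagonal summation
  have h1 : HasSum f (P y) := by
    have ha := (Finset.HasAntidiagonal.sigmaAntidiagonalEquivProd (A := ℕ)).hasSum_iff.2
      hsum.hasSum
    have hb := ha.sigma (g := fun N => ∑ p ∈ antidiagonal N, f p) fun N => by
      rw [← Finset.sum_coe_sort]
      exact hasSum_fintype _
    have hc : ∀ N, ∑ p ∈ antidiagonal N, f p = ((0 : ℝ) ^ N / N.factorial) • P ((X ^ N) y) := by
      intro N
      rw [show (0 : ℝ) = -t + t by ring, (Commute.all (-t) t).add_pow', Finset.sum_div,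
        Finset.sum_smul]
      refine Finset.sum_congr rfl fun p hp => ?_
      rw [HasAntidiagonal.mem_antidiagonal] at hp
      simp only [hf]
      rw [coef_mul, hp, nsmul_eq_mul]
    have hd : HasSum (fun N => ∑ p ∈ antidiagonal N, f p) (P y) := by
      have := hasSum_single (f := fun N => ∑ p ∈ antidiagonal N, f p) 0 (fun N hN => by
        rw [hc, zero_pow hN]; simp)
      simpa [hf] using this
    rw [← hb.unique hd]
    exact hsum.hasSum
  refine h1.prod_fiberwise fun m => ?_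
  have := (flowHom_hasSum hX P t hs ((X ^ m) y)).const_smul ((-t) ^ m / m.factorial)
  rw [map_smul]
  refine this.congr_fun fun n => ?_
  simp only [hf, fterm]
  rw [smul_smul, add_comm m n, pow_add, Module.End.mul_apply]

end Series

/-- Sketch. Take `ρ, C` from `hg`, `t₀ = 1/(4ρ)`; so `‖(tⁿ/n!) • P (Xⁿ y)‖ ≤ C y (tρ)ⁿ` for `|t| ≤ t₀`.
`E y := ∑' n, (tⁿ/n!) • P (Xⁿ y)`.
* linear: `tsum_add`, `tsum_const_smul`; `E 1 = 1` since `X 1 = 0` (`IsDer.map_one`);
  multiplicative: iterated Leibniz `Xⁿ(yz) = ∑_{antidiagonal n} choose • Xⁱ y * Xʲ z`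
  (induction, `Finset.sum_antidiagonal_choose_succ_nsmul`) and
  `tsum_mul_tsum_eq_tsum_sum_antidiagonal_of_summable_norm`.
* `E y ∈ closure (range P)`: partial sums are `P` of finite sums.
* `P y = ∑' m, ((-t)^m/m!) • E (X^m y)`: the double family `((-t)^m tⁿ/(m! n!)) • P (X^(n+m) y)` is
  norm summable (`(n+m)! ≤ 2^(n+m) n! m!`, so the terms are `≤ C (2tρ)^m (2tρ)^n`), sum it along
  antidiagonals (`Summable.tsum_prod`, `Finset.Nat.sigmaAntidiagonalEquivProd`/`Summable.tsum_sigma`)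
  and use the binomial theorem `(t + -t)^N = 0`.  Partial sums are `E` of finite sums.
* Taylor: `∑_{n ≥ 2} C (tρ)ⁿ ≤ 2 C ρ² t²`.
* the functional and star statements pass through `tsum` by continuity. -/
theorem flow_step {A B : Type*} [Ring A] [Algebra ℝ A] [NormedRing B] [NormedAlgebra ℝ B]
    [CompleteSpace B] [StarRing B] [ContinuousStar B] [StarModule ℝ B]
    (X : A →ₗ[ℝ] A) (hX : IsDer X) (N : A → ℝ) (hg : Growth X N) :
    ∃ t₀ : ℝ, 0 < t₀ ∧ ∃ C : A → ℝ, ∀ P : A →ₐ[ℝ] B, (∀ y, ‖P y‖ ≤ N y) →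
      ∀ t : ℝ, 0 ≤ t → t ≤ t₀ → ∃ E : A →ₐ[ℝ] B,
        (∀ y, E y ∈ closure (Set.range P)) ∧
        (∀ y, P y ∈ closure (Set.range E)) ∧
        (∀ y, ‖E y - P y - t • P (X y)‖ ≤ C y * t ^ 2) ∧
        (∀ y, X y = 0 → E y = P y) ∧
        (∀ φ : B →L[ℝ] ℂ, (∀ y, φ (P (X y)) = 0) → ∀ y, φ (E y) = φ (P y)) ∧
        (∀ s : A → A, (∀ y, P (s y) = star (P y)) → (∀ y, X (s y) = s (X y)) →
          ∀ y, E (s y) = star (E y)) := by
  obtain ⟨ρ, hρ, hC⟩ := hg
  choose C hC using hC
  refine ⟨1 / (4 * ρ), by positivity, fun y => 2 * C y * ρ ^ 2, fun P hP t ht ht0 => ?_⟩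
  have h : ∀ y n, ‖P ((X ^ n) y)‖ ≤ C y * ρ ^ n * n.factorial := fun y n => (hP _).trans (hC y n)
  have htρ : t * ρ ≤ 1 / 4 := by
    rw [le_div_iff₀ (by positivity)] at ht0
    linarith
  have hs : ∀ y, Summable fun n => ‖fterm X P t y n‖ := fterm_summable_norm h ht hρ htρ
  have hE := flowHom_hasSum hX P t hs
  refine ⟨flowHom hX P t hs, fun y => ?_, fun y => ?_, fun y => ?_, fun y hy => ?_,
    fun φ hφ y => ?_, fun s hs1 hs2 y => ?_⟩
  · refine mem_closure_range_of_hasSum P (fun n => (t ^ n / n.factorial) • (X ^ n) y) ?_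
    refine (hE y).congr_fun fun n => ?_
    simp [fterm]
  · exact mem_closure_range_of_hasSum _ _ (flow_inv hX h ht hρ htρ hs y)
  · have hCy : 0 ≤ C y := by
      have := (norm_nonneg _).trans (h y 0)
      simpa using this
    have h2 := (hasSum_nat_add_iff' 2).2 (hE y)
    have h3 : flowHom hX P t hs y - P y - t • P (X y) =
        flowHom hX P t hs y - ∑ i ∈ Finset.range 2, fterm X P t y i := by
      simp [Finset.sum_range_succ, fterm, sub_sub]
    rw [h3]
    have hq0 : 0 ≤ t * ρ := by positivity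
    have h4 : HasSum (fun n : ℕ => C y * (t * ρ) ^ 2 * (t * ρ) ^ n)
        (C y * (t * ρ) ^ 2 * (1 - t * ρ)⁻¹) :=
      (hasSum_geometric_of_lt_one hq0 (by linarith)).mul_left _
    have h5 := h2.norm_le_of_bounded h4 fun n => by
      refine (fterm_norm_le h ht y (n + 2)).trans (le_of_eq ?_)
      ring
    refine h5.trans ?_
    have h6 : (1 - t * ρ)⁻¹ ≤ 2 := by
      rw [inv_le_comm₀ (by linarith) (by norm_num)]
      linarith
    calc C y * (t * ρ) ^ 2 * (1 - t * ρ)⁻¹ ≤ C y * (t * ρ) ^ 2 * 2 :=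
          mul_le_mul_of_nonneg_left h6 (by positivity)
      _ = 2 * C y * ρ ^ 2 * t ^ 2 := by ring
  · have := hasSum_single (f := fterm X P t y) 0 fun n hn => by
      obtain ⟨k, rfl⟩ := Nat.exists_eq_succ_of_ne_zero hn
      simp [fterm, pow_succ, hy]
    rw [(hE y).unique this]
    simp [fterm]
  · have h1 := (hE y).mapL φ
    have := hasSum_single (f := fun n => φ (fterm X P t y n)) 0 fun n hn => by
      obtain ⟨k, rfl⟩ := Nat.exists_eq_succ_of_ne_zero hn
      simp [fterm, pow_succ', hφ]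
    rw [h1.unique this]
    simp [fterm]
  · have hp : ∀ n y, (X ^ n) (s y) = s ((X ^ n) y) := by
      intro n
      induction n with
      | zero => simp
      | succ n ih => intro y; rw [pow_succ', Module.End.mul_apply, ih, hs2, Module.End.mul_apply]
    refine (hE (s y)).unique ((hE y).star.congr_fun fun n => ?_)
    simp [fterm, hp, hs1]

end Crest.Agent.R134
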