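import Crest.Agent.R134.Flow

/-! Row 134: the time-one flow on good representations. -/

set_option autoImplicit false

namespace Crest.Agent.R134

open scoped InnerProductSpace

variable {H : Type*} [NormedAddCommGroup H] [InnerProductSpace ℂ H] [CompleteSpace H]
variable {Λ : Type*} [Group Λ]

theorem exp_taylor {B : Type*} [NormedRing B] [NormedAlgebra ℝ B] [CompleteSpace B] (x : B)
    (hx : ‖x‖ ≤ 1 / 2) : ‖NormedSpace.exp x - 1 - x‖ ≤ 2 * ‖x‖ ^ 2 := by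
  have h1 := NormedSpace.exp_series_hasSum_exp' (𝕂 := ℝ) x
  have h2 := (hasSum_nat_add_iff' 2).2 h1
  have h3 : NormedSpace.exp x - 1 - x =
      NormedSpace.exp x - ∑ i ∈ Finset.range 2, ((i.factorial : ℝ)⁻¹) • x ^ i := by
    simp [Finset.sum_range_succ, sub_sub]
  rw [h3]
  have h4 : HasSum (fun n : ℕ => ‖x‖ ^ 2 * ‖x‖ ^ n) (‖x‖ ^ 2 * (1 - ‖x‖)⁻¹) :=
    (hasSum_geometric_of_lt_one (norm_nonneg x) (by linarith)).mul_left _
  have h5 := h2.norm_le_of_bounded h4 fun n => by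
    have h7 : (1 : ℝ) ≤ (n + 2).factorial := by exact_mod_cast Nat.factorial_pos _
    rw [norm_smul, Real.norm_eq_abs, abs_of_nonneg (by positivity)]
    calc (((n + 2).factorial : ℝ)⁻¹) * ‖x ^ (n + 2)‖ ≤ 1 * ‖x‖ ^ (n + 2) :=
          mul_le_mul (inv_le_one_of_one_le₀ h7) (norm_pow_le' x (by omega)) (norm_nonneg _)
            zero_le_one
      _ = ‖x‖ ^ 2 * ‖x‖ ^ n := by ring
  refine h5.trans ?_
  have h6 : (1 - ‖x‖)⁻¹ ≤ 2 := by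
    rw [inv_le_comm₀ (by linarith) (by norm_num)]
    linarith
  calc ‖x‖ ^ 2 * (1 - ‖x‖)⁻¹ ≤ ‖x‖ ^ 2 * 2 := mul_le_mul_of_nonneg_left h6 (by positivity)
    _ = 2 * ‖x‖ ^ 2 := by ring

/-- one step of the flow -/
theorem gflow_step {M : StarSubalgebra ℂ (H →L[ℂ] H)} (hM : IsClosed (M : Set (H →L[ℂ] H)))
    {Ω : H} (hΩ : ‖Ω‖ = 1) (X : RG Λ →ₗ[ℝ] RG Λ) (hX : IsDer X) (hg : Growth X n1)
    (hsta : ∀ y, X (sta y) = sta (X y)) (htr : ∀ y, (X y).coeff 1 = 0) :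
    ∃ t₀ : ℝ, 0 < t₀ ∧ ∃ C : RG Λ → ℝ, ∀ π₀ : Λ →* (H →L[ℂ] H), Good M Ω π₀ →
      ∀ t : ℝ, 0 ≤ t → t ≤ t₀ → ∃ π₁ : Λ →* (H →L[ℂ] H), Good M Ω π₁ ∧
        (∀ y, X y = 0 → ev π₁ y = ev π₀ y) ∧
        ∀ y, ‖ev π₁ y - ev π₀ y - t • ev π₀ (X y)‖ ≤ C y * t ^ 2 := by
  obtain ⟨t₀, ht₀, C, hC⟩ := flow_step (B := H →L[ℂ] H) X hX n1 hg
  refine ⟨t₀, ht₀, C, fun π₀ hπ₀ t ht ht0 => ?_⟩
  obtain ⟨E, h1, h2, h3, h4, h5, h6⟩ := hC (ev π₀) hπ₀.urep.norm_ev_le t ht ht0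
  let π₁ : Λ →* (H →L[ℂ] H) := (E : RG Λ →* (H →L[ℂ] H)).comp (MonoidAlgebra.of ℝ Λ)
  have hπ₁ : ∀ g, π₁ g = E (e g) := fun g => rfl
  have hev : ev π₁ = E :=
    MonoidAlgebra.algHom_ext (fun g => (ev_e π₁ g).trans (hπ₁ g)) (Subsingleton.elim _ _)
  refine ⟨π₁, ⟨⟨fun g => ?_, fun g => ?_⟩, fun g hg1 => ?_, ?_⟩, ?_, ?_⟩
  · rw [hπ₁]
    refine hM.closure_subset_iff.2 ?_ (h1 (e g))
    rintro _ ⟨y, rfl⟩
    exact hπ₀.urep.ev_mem y
  · rw [hπ₁, hπ₁, ← h6 sta hπ₀.urep.ev_sta hsta, sta_single]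
  · let φ : (H →L[ℂ] H) →L[ℝ] ℂ :=
      ((innerSL ℂ Ω).comp (ContinuousLinearMap.apply ℂ H Ω)).restrictScalars ℝ
    have hφ : ∀ T, φ T = ⟪Ω, T Ω⟫_ℂ := fun T => rfl
    have := h5 φ (fun y => by rw [hφ, hπ₀.reg.inner_ev hΩ, htr]; simp) (e g)
    rw [hφ, hφ, ev_e, hπ₀.reg g hg1] at this
    rw [hπ₁, this]
  · set S := Submodule.span ℂ (Set.range fun g => π₁ g Ω) with hS
    have hle : Submodule.span ℂ (Set.range fun g => π₀ g Ω) ≤ S.topologicalClosure := by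
      rw [Submodule.span_le]
      rintro _ ⟨g, rfl⟩
      have hc : Continuous fun T : H →L[ℂ] H => T Ω := by fun_prop
      have := map_mem_closure hc (h2 (e g)) (t := (S : Set H)) (by
        rintro _ ⟨y, rfl⟩
        rw [← hev]
        exact ev_apply_mem_span π₁ Ω y)
      rw [ev_e] at this
      exact this
    have hd : Dense (S.topologicalClosure : Set H) := hπ₀.tot.mono hle
    exact dense_closure.1 hd
  · rw [hev]; exact h4
  · rw [hev]; exact h3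

/-- Sketch. Take `t₀, C` from `flow_step X hX n1 hg` with `B = H →L[ℂ] H`.
One step: for a good `π₀` and `0 ≤ t ≤ t₀` apply it to `P = ev π₀` (`URep.norm_ev_le`) and put
`π₁ g = E (e g)` (so `ev π₁ = E`, `MonoidAlgebra.algHom_ext`).  `π₁` is good: `mem` since `M` is closed
and `ev_mem`; `star_eq` with `s = sta` (`URep.ev_sta`, `hsta`); `Reg` with `φ T = ⟪Ω, T Ω⟫`
(`Reg.inner_ev`, `htr`); `Tot` since `π₀ g Ω ∈ closure (span π₁ Ω)` (`ev_apply_mem_span`).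
Moreover `ev π₁ (ψ l) = ev π₀ (ψ l) =: Ψ l` (`hψ`), `Ψ l` is skew-adjoint, `exp (t • Ψ)` is unitary
(`NormedSpace.exp_mem_unitary_of_mem_skewAdjoint`), `‖exp (t•Ψ) - 1 - t•Ψ‖ ≤ C' t²` for `t ≤ 1`, and
`‖π₁ w Ω - exp (t•Ψ) (π₀ w Ω)‖ ≤ t √(nsq (X (e w) - ψ e w)) + (C + C') t²` (`URep.norm_ev_apply`).
Iterate `N` times with `t = 1/N`: by induction on `k` there is a good `π_k` with `ev π_k ψ = Ψ` and
`‖π_k w Ω - exp ((k t) • Ψ) (π w Ω)‖ ≤ k (t √… + C'' t²)` for all `l` (`exp_add_of_commute`).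
Choose `N` with `1/N ≤ t₀`, `1/N ≤ 1` and `C''_l / N ≤ η` for the finitely many `l`. -/
theorem gflow {M : StarSubalgebra ℂ (H →L[ℂ] H)} (hM : IsClosed (M : Set (H →L[ℂ] H)))
    {Ω : H} (hΩ : ‖Ω‖ = 1) (X : RG Λ →ₗ[ℝ] RG Λ) (hX : IsDer X) (hg : Growth X n1)
    (hsta : ∀ y, X (sta y) = sta (X y)) (htr : ∀ y, (X y).coeff 1 = 0)
    {κ : Type*} [Finite κ] (w : κ → Λ) (ψ : κ → RG Λ) (hψ : ∀ l, X (ψ l) = 0)
    (hψs : ∀ l, sta (ψ l) = -ψ l)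
    (π : Λ →* (H →L[ℂ] H)) (hπ : Good M Ω π) (η : ℝ) (hη : 0 < η) :
    ∃ π' : Λ →* (H →L[ℂ] H), Good M Ω π' ∧ ∀ l,
      ‖π' (w l) Ω - NormedSpace.exp (ev π (ψ l)) (π (w l) Ω)‖ ≤
        √(nsq (X (e (w l)) - ψ l * e (w l))) + η := by
  let +nondep : NormedAlgebra ℚ (H →L[ℂ] H) := .restrictScalars ℚ ℂ _
  obtain ⟨t₀, ht₀, C, hC⟩ := gflow_step hM hΩ X hX hg hsta htr
  set Ψ : κ → (H →L[ℂ] H) := fun l => ev π (ψ l) with hΨ
  set D : κ → ℝ := fun l => √(nsq (X (e (w l)) - ψ l * e (w l))) with hD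
  set K : κ → ℝ := fun l => C (e (w l)) + 2 * ‖Ψ l‖ ^ 2 with hK
  have hskew : ∀ l (s : ℝ), s • Ψ l ∈ skewAdjoint (H →L[ℂ] H) := fun l s => by
    rw [skewAdjoint.mem_iff, star_smul, ← hπ.urep.ev_sta, hψs, map_neg]
    simp [hΨ]
  have hind : ∀ t : ℝ, 0 ≤ t → t ≤ t₀ → (∀ l, t * ‖Ψ l‖ ≤ 1 / 2) → ∀ k : ℕ,
      ∃ π' : Λ →* (H →L[ℂ] H), Good M Ω π' ∧ (∀ l, ev π' (ψ l) = Ψ l) ∧ ∀ l,
        ‖π' (w l) Ω - NormedSpace.exp (((k : ℝ) * t) • Ψ l) (π (w l) Ω)‖ ≤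
          k * (t * D l + K l * t ^ 2) := by
    intro t ht ht0 htΨ k
    induction k with
    | zero => exact ⟨π, hπ, fun l => rfl, fun l => by simp⟩
    | succ k ih =>
      obtain ⟨π₀, hπ₀, hψ₀, hest⟩ := ih
      obtain ⟨π₁, hπ₁, h1, h2⟩ := hC π₀ hπ₀ t ht ht0
      refine ⟨π₁, hπ₁, fun l => by rw [h1 _ (hψ l), hψ₀], fun l => ?_⟩
      have hU := NormedSpace.exp_mem_unitary_of_mem_skewAdjoint (hskew l t)
      have hexp : NormedSpace.exp ((((k + 1 : ℕ) : ℝ) * t) • Ψ l) =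
          NormedSpace.exp (t • Ψ l) * NormedSpace.exp (((k : ℝ) * t) • Ψ l) := by
        rw [← NormedSpace.exp_add_of_commute (((Commute.refl (Ψ l)).smul_left _).smul_right _),
          ← add_smul]
        congr 2
        push_cast; ring
      have hnt : ‖t • Ψ l‖ = t * ‖Ψ l‖ := by
        rw [norm_smul, Real.norm_eq_abs, abs_of_nonneg ht]
      have ha : ‖(ev π₁ (e (w l)) - ev π₀ (e (w l)) - t • ev π₀ (X (e (w l)))) Ω‖ ≤
          C (e (w l)) * t ^ 2 := by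
        refine (ContinuousLinearMap.le_opNorm _ _).trans ?_
        rw [hΩ, mul_one]; exact h2 _
      have hb : ‖t • ev π₀ (X (e (w l)) - ψ l * e (w l)) Ω‖ = t * D l := by
        rw [norm_smul, Real.norm_eq_abs, abs_of_nonneg ht, hπ₀.urep.norm_ev_apply hπ₀.reg hΩ]
      have hc : ‖(NormedSpace.exp (t • Ψ l) - 1 - t • Ψ l) (π₀ (w l) Ω)‖ ≤
          2 * ‖Ψ l‖ ^ 2 * t ^ 2 := by
        refine (ContinuousLinearMap.le_opNorm _ _).trans ?_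
        rw [hπ₀.urep.norm_apply, hΩ, mul_one]
        refine (exp_taylor _ (by rw [hnt]; exact htΨ l)).trans (le_of_eq ?_)
        rw [hnt]; ring
      have hd : ‖NormedSpace.exp (t • Ψ l) (π₀ (w l) Ω -
          NormedSpace.exp (((k : ℝ) * t) • Ψ l) (π (w l) Ω))‖ ≤ k * (t * D l + K l * t ^ 2) := by
        rw [ContinuousLinearMap.norm_map_of_mem_unitary hU]; exact hest l
      have hsplit : π₁ (w l) Ω - NormedSpace.exp ((((k + 1 : ℕ) : ℝ) * t) • Ψ l) (π (w l) Ω) =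
          (ev π₁ (e (w l)) - ev π₀ (e (w l)) - t • ev π₀ (X (e (w l)))) Ω +
          t • ev π₀ (X (e (w l)) - ψ l * e (w l)) Ω -
          (NormedSpace.exp (t • Ψ l) - 1 - t • Ψ l) (π₀ (w l) Ω) +
          NormedSpace.exp (t • Ψ l) (π₀ (w l) Ω -
            NormedSpace.exp (((k : ℝ) * t) • Ψ l) (π (w l) Ω)) := by
        rw [hexp, map_sub (ev π₀), map_mul (ev π₀), hψ₀, ev_e, ev_e]
        simp only [sub_apply, mul_apply_eq_comp, smul_apply, one_apply_eq_self, map_sub, smul_sub]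
        abel
      rw [hsplit]
      refine (norm_add_le _ _).trans ?_
      have := (norm_sub_le _ _).trans (add_le_add ((norm_add_le _ _).trans
        (add_le_add ha hb.le)) hc)
      refine (add_le_add this hd).trans (le_of_eq ?_)
      simp only [hK]; push_cast; ring
  obtain ⟨K₁, hK₁⟩ := (Set.finite_range fun l => ‖Ψ l‖).bddAbove
  obtain ⟨K₂, hK₂⟩ := (Set.finite_range K).bddAbove
  obtain ⟨N, hN⟩ := exists_nat_gt (max (max (1 / t₀) (2 * K₁)) (max (K₂ / η) 0))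
  simp only [max_lt_iff] at hN
  obtain ⟨⟨hN1, hN2⟩, hN3, hN0⟩ := hN
  obtain ⟨π', hπ', -, hest⟩ := hind (1 / N) (by positivity)
    (by rw [div_le_iff₀ hN0]; rw [div_lt_iff₀ ht₀] at hN1; linarith)
    (fun l => by
      have := hK₁ ⟨l, rfl⟩
      rw [div_mul_eq_mul_div, div_le_iff₀ hN0]; linarith) N
  refine ⟨π', hπ', fun l => ?_⟩
  have h1 := hest l
  rw [mul_one_div_cancel hN0.ne', one_smul] at h1
  refine h1.trans ?_
  have h2 : (N : ℝ) * (1 / N * D l + K l * (1 / N) ^ 2) = D l + K l / N := by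
    field_simp
  rw [h2]
  have h3 : K l / N ≤ η := by
    have := hK₂ ⟨l, rfl⟩
    rw [div_lt_iff₀ hη] at hN3
    rw [div_le_iff₀ hN0]; linarith
  exact add_le_add le_rfl h3

end Crest.Agent.R134
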