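import Crest.Agent.R134.Baire

/-! Row 134: a good representation generates `M`. -/

set_option autoImplicit false

namespace Crest.Agent.R134

open scoped InnerProductSpace

variable {H : Type*} [NormedAddCommGroup H] [InnerProductSpace ℂ H] [CompleteSpace H]
variable {Λ : Type*} [Group Λ] {M : StarSubalgebra ℂ (H →L[ℂ] H)} {Ω : H} {π : Λ →* (H →L[ℂ] H)}

omit [CompleteSpace H] in
theorem Tot.ext (h : Tot π Ω) {E : Type*} [NormedAddCommGroup E] [NormedSpace ℂ E]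
    {A B : H →L[ℂ] E} (hAB : ∀ g, A (π g Ω) = B (π g Ω)) : A = B :=
  ContinuousLinearMap.ext_on h (by rintro _ ⟨g, rfl⟩; exact hAB g)

omit [CompleteSpace H] in
theorem Tot.eq_zero (h : Tot π Ω) {v : H} (hv : ∀ g, ⟪π g Ω, v⟫_ℂ = 0) : v = 0 := by
  have : innerSL ℂ v = 0 := h.ext fun g => by
    rw [innerSL_apply_apply, ← inner_conj_symm, hv]; simp
  have h2 := congrArg (fun f : H →L[ℂ] ℂ => f v) this
  simpa using h2

theorem Good.comm_vec (hS : Setup M Ω) (hπ : Good M Ω π) {T : H →L[ℂ] H}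
    (hT : ∀ g, π g * T = T * π g) {x : H →L[ℂ] H} (hx : x ∈ M) : T (x Ω) = x (T Ω) := by
  rw [← sub_eq_zero]
  refine hπ.tot.eq_zero fun h => ?_
  have key : ∀ y ∈ M, ‖⟪π h Ω, T (y Ω) - y (T Ω)⟫_ℂ‖ ≤
      (‖(star T) (π h Ω)‖ + ‖T Ω‖) * ‖y Ω‖ := by
    intro y hy
    rw [inner_sub_right, ← ContinuousLinearMap.adjoint_inner_left T,
      ← ContinuousLinearMap.adjoint_inner_left y (T Ω), ← ContinuousLinearMap.star_eq_adjoint,
      ← ContinuousLinearMap.star_eq_adjoint, add_mul]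
    refine (norm_sub_le _ _).trans (add_le_add (norm_inner_le_norm _ _) ?_)
    refine (norm_inner_le_norm _ _).trans (le_of_eq ?_)
    rw [hS.norm_mul_unitary (star_mem hy) (hπ.urep.mem _) (hπ.urep.mem_unitary _),
      hS.norm_star _ hy, mul_comm]
  set C := ‖(star T) (π h Ω)‖ + ‖T Ω‖
  have hC : 0 ≤ C := by positivity
  rw [← norm_le_zero_iff]
  refine le_of_forall_pos_le_add fun ε hε => ?_
  obtain ⟨ξ, hξ, hd⟩ := Metric.mem_closure_iff.1 (hπ.tot (x Ω)) (ε / (C + 1)) (by positivity)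
  obtain ⟨c, rfl⟩ := Finsupp.mem_span_range_iff_exists_finsupp.1 hξ
  set P : H →L[ℂ] H := c.sum fun g r => r • π g with hP
  have hPM : P ∈ M := sum_mem fun g _ => M.smul_mem (hπ.urep.mem g) _
  have hPΩ : P Ω = c.sum fun g r => r • π g Ω := by simp [hP, Finsupp.sum]
  have hPT : P * T = T * P := by
    simp only [hP, Finsupp.sum, Finset.sum_mul, Finset.mul_sum, smul_mul_assoc, mul_smul_comm, hT]
  have h1 : T (P Ω) = P (T Ω) := by
    rw [← mul_apply_eq_comp, ← hPT, mul_apply_eq_comp]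
  have h2 := key (x - P) (sub_mem hx hPM)
  have h3 : T ((x - P) Ω) - (x - P) (T Ω) = T (x Ω) - x (T Ω) := by
    simp only [sub_apply, map_sub, h1]; abel
  rw [h3, sub_apply, hPΩ, ← dist_eq_norm] at h2
  have h4 : C * (ε / (C + 1)) ≤ ε := by
    rw [← mul_div_assoc, div_le_iff₀ (by positivity)]
    nlinarith
  have h5 := mul_le_mul_of_nonneg_left hd.le hC
  linarith

theorem Good.comm (hS : Setup M Ω) (hπ : Good M Ω π) {T : H →L[ℂ] H}
    (hT : ∀ g, π g * T = T * π g) {x : H →L[ℂ] H} (hx : x ∈ M) : T * x = x * T := by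
  refine hπ.tot.ext fun g => ?_
  have h1 := hπ.comm_vec hS hT (mul_mem hx (hπ.urep.mem g))
  rw [mul_apply_eq_comp, mul_apply_eq_comp, ← mul_apply_eq_comp (π g), hT] at h1
  exact h1

theorem Good.orthonormal (hπ : Good M Ω π) (hΩ : ‖Ω‖ = 1) : Orthonormal ℂ fun g => π g Ω := by
  refine ⟨fun g => by rw [hπ.urep.norm_apply, hΩ], fun g k hgk => ?_⟩
  change ⟪π g Ω, π k Ω⟫_ℂ = 0
  rw [hπ.urep.inner_apply]
  exact hπ.reg _ fun h => hgk (inv_mul_eq_one.1 h)

/-- the Hilbert basis attached to a good representation -/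
theorem Good.exists_basis (hπ : Good M Ω π) (hΩ : ‖Ω‖ = 1) :
    ∃ b : HilbertBasis Λ ℂ H, ∀ g, b g = π g Ω :=
  ⟨HilbertBasis.mk (hπ.orthonormal hΩ)
    (Submodule.dense_iff_topologicalClosure_eq_top.1 hπ.tot).ge, fun g => by simp⟩

end Crest.Agent.R134
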