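import Crest.Agent.R134.VNA
import Crest.Agent.R134.VNB
import Crest.Prelude.Def_GroupVNA

/-! Row 134: the group von Neumann algebra. -/

set_option autoImplicit false

namespace Crest.Agent.R134

open scoped InnerProductSpace
open Crest.OpAlg

/-- the trace vector -/
noncomputable def delta (G : Type*) [Group G] [DecidableEq G] : ltwo G := lp.single 2 (1 : G) (1 : ℂ)

/-- the left regular representation as a monoid homomorphism -/
noncomputable def lam (G : Type*) [Group G] : G →* (ltwo G →L[ℂ] ltwo G) where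
  toFun := leftRegular
  map_one' := by ext ξ h; simp [leftRegular, ltwoReindex]
  map_mul' g k := by ext ξ h; simp [leftRegular, ltwoReindex, mul_assoc]

/-- Sketch. Right translations `ρ g = ltwoReindex (Equiv.mulRight g)` are unitaries commuting with every
`λ h` (and `star (λ h) = λ h⁻¹`), so every `x ∈ M` commutes with them and
`x δ_g = ρ g⁻¹ (x δ_1)`, i.e. `(x δ_g) h = (x δ_1) (h g⁻¹)`.  Hence `(x⋆ δ_1) g = conj ((x δ_g) 1) =
conj ((x δ_1) g⁻¹)` and `‖x⋆ δ_1‖ = ‖x δ_1‖`.  `M` is a centralizer, so norm closed.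
Completeness: `u k δ_g = ρ g⁻¹ (u k δ_1)` is Cauchy, `‖u k‖ ≤ 1` and the `δ_g` are total, so `u k ξ` converges
for all `ξ` (`continuousLinearMapOfTendsto`/`LinearMap.mkContinuous`); the same for `star (u k)` by `norm_star`
applied to `u k - u l`; the limits `v, v'` satisfy `v' = star v`, `v v' = v' v = 1`, and `v` commutes with the
commutant. -/
theorem setup_vn (G : Type*) [Group G] [DecidableEq G] :
    Setup (groupVNA G).toStarSubalgebra (delta G) :=
  setup_vn' G

/-- Sketch. `λ g δ_1 = δ_g`; `lp.hasSum_single` for density. -/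
theorem good_lam (G : Type*) [Group G] [DecidableEq G] :
    Good (groupVNA G).toStarSubalgebra (delta G) (lam G) := by
  have h : ∀ g : G, lam G g (delta G) = (lp.single 2 g (1 : ℂ) : ltwo G) := leftRegular_single
  refine ⟨⟨leftRegular_mem, star_leftRegular⟩, fun g hg => ?_, ?_⟩
  · rw [h, delta, lp.inner_single_left, lp.single_apply_ne _ _ _ hg.symm, inner_zero_right]
  · simp only [Tot, h]
    exact dense_span_single

/-- Sketch. The vectors `π g Ω` (`Ω = delta G`) are orthonormal and total, so they form a `HilbertBasis`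
(`HilbertBasis.mk`), whose `repr.symm` is a unitary `U : ltwo Γ ≃ₗᵢ ltwo G` with `U δ_g = π g Ω`; so
`U λ(g) U⁻¹ = π g` and `U δ_1 = Ω`.  Conjugation by `U` (`LinearIsometryEquiv.conjStarAlgEquiv`) maps
`groupVNA Γ` onto the double commutant `Q` of `range π`, and preserves the vector states.  `Q = M`:
`Q ⊆ M` since `range π ⊆ M = M''`.  For `M ⊆ Q` let `x ∈ M`, `T` commute with all `π g`.  Choose
`P_k` in the span of the `π g` with `P_k Ω → x Ω` (`Tot`).  For each `h`,
`‖(P_k - x)⋆ π h Ω‖ = ‖(P_k - x) Ω‖ → 0` (`Setup.norm_star` twice), so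
`⟪π h Ω, T x Ω⟫ = lim ⟪π h Ω, P_k T Ω⟫ = lim ⟪P_k⋆ π h Ω, T Ω⟫ = ⟪π h Ω, x T Ω⟫`; so `T x Ω = x T Ω` for all
`x ∈ M`; apply it to `x π g`: `T x (π g Ω) = x π g T Ω = x T (π g Ω)`, so `T x = x T`. -/
theorem iso_of_good (Γ G : Type) [Group Γ] [DecidableEq Γ] [Group G] [DecidableEq G]
    (π : Γ →* (ltwo G →L[ℂ] ltwo G)) (hπ : Good (groupVNA G).toStarSubalgebra (delta G) π) :
    ∃ Φ : (groupVNA Γ).toStarSubalgebra ≃⋆ₐ[ℂ] (groupVNA G).toStarSubalgebra,
      ∀ x : (groupVNA Γ).toStarSubalgebra,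
        groupTrace G ((Φ x : (groupVNA G).toStarSubalgebra) : ltwo G →L[ℂ] ltwo G) =
          groupTrace Γ (x : ltwo Γ →L[ℂ] ltwo Γ) := by
  have hmem : ∀ (K : Type) [Group K] [DecidableEq K] (x : ltwo K →L[ℂ] ltwo K),
      (∀ T : ltwo K →L[ℂ] ltwo K, (∀ g, lam K g * T = T * lam K g) → T * x = x * T) →
      x ∈ (groupVNA K).toStarSubalgebra := by
    intro K _ _ x hx
    refine StarSubalgebra.mem_centralizer_iff ℂ |>.2 fun T hT => ?_
    have h1 := (StarSubalgebra.mem_centralizer_iff ℂ).1 hT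
    have h2 := (StarSubalgebra.mem_centralizer_iff ℂ).1 (star_mem hT)
    exact ⟨hx T fun g => (h1 _ ⟨g, rfl⟩).1, hx _ fun g => (h2 _ ⟨g, rfl⟩).1⟩
  have hSG := setup_vn G
  have hSΓ := setup_vn Γ
  have hG := good_lam G
  have hΓ := good_lam Γ
  obtain ⟨b, hb⟩ := hπ.exists_basis hSG.norm_one
  obtain ⟨b', hb'⟩ := hΓ.exists_basis hSΓ.norm_one
  let U : ltwo Γ ≃ₗᵢ[ℂ] ltwo G := b'.repr.trans b.repr.symm
  have hU : ∀ g, U (lam Γ g (delta Γ)) = π g (delta G) := fun g => by
    rw [← hb, ← hb', LinearIsometryEquiv.trans_apply, HilbertBasis.repr_self,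
      HilbertBasis.repr_symm_single]
  have hU1 : U (delta Γ) = delta G := by simpa using hU 1
  let Ψ := U.conjStarAlgEquiv
  have hΨ : ∀ g, Ψ (lam Γ g) = π g := fun g => hπ.tot.ext fun k => by
    rw [← hU k, LinearIsometryEquiv.conjStarAlgEquiv_apply_apply, U.symm_apply_apply,
      ← mul_apply_eq_comp, ← map_mul, hU, hU, map_mul, mul_apply_eq_comp]
  have h1 : ∀ x ∈ (groupVNA Γ).toStarSubalgebra, Ψ x ∈ (groupVNA G).toStarSubalgebra := by
    intro x hx
    refine hmem G _ fun T hT => ?_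
    have h2 : ∀ g, lam Γ g * Ψ.symm T = Ψ.symm T * lam Γ g := fun g => by
      apply EquivLike.injective Ψ
      rw [map_mul, map_mul, hΨ, Ψ.apply_symm_apply]
      exact (hG.comm hSG hT (hπ.urep.mem g)).symm
    have h3 := congrArg Ψ (hΓ.comm hSΓ h2 hx)
    rwa [map_mul, map_mul, Ψ.apply_symm_apply] at h3
  have h2 : ∀ y ∈ (groupVNA G).toStarSubalgebra, Ψ.symm y ∈ (groupVNA Γ).toStarSubalgebra := by
    intro y hy
    refine hmem Γ _ fun T hT => ?_
    apply EquivLike.injective Ψ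
    rw [map_mul, map_mul, Ψ.apply_symm_apply]
    refine hπ.comm hSG (fun g => ?_) hy
    rw [← hΨ, ← map_mul, ← map_mul, hT]
  refine ⟨{ toFun := fun x => ⟨Ψ x, h1 x x.2⟩
            invFun := fun y => ⟨Ψ.symm y, h2 y y.2⟩
            left_inv := fun x => Subtype.ext (Ψ.symm_apply_apply _)
            right_inv := fun y => Subtype.ext (Ψ.apply_symm_apply _)
            map_mul' := fun x y => Subtype.ext (map_mul Ψ _ _)
            map_add' := fun x y => Subtype.ext (map_add Ψ _ _)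
            map_star' := fun x => Subtype.ext (map_star Ψ _)
            map_smul' := fun c x => Subtype.ext (map_smul Ψ _ _) }, fun x => ?_⟩
  change ⟪delta G, U ((x : ltwo Γ →L[ℂ] ltwo Γ) (U.symm (delta G)))⟫_ℂ =
    ⟪delta Γ, (x : ltwo Γ →L[ℂ] ltwo Γ) (delta Γ)⟫_ℂ
  rw [← hU1, U.symm_apply_apply, U.inner_map_map]

end Crest.Agent.R134
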