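import Crest.Agent.R134.Step
import Crest.Agent.R134.Baire
import Crest.Agent.R134.VN

/-! Row 134: assembly. -/

set_option autoImplicit false

namespace Crest.Agent.R134

open Crest.OpAlg

theorem main (n : ℕ) (hn : 2 ≤ n) [DecidableEq (FreeGroup (Fin n))]
    [DecidableEq (FreeGroup (Fin (n + 1)))] :
    ∃ Φ : (groupVNA (FreeGroup (Fin n))).toStarSubalgebra ≃⋆ₐ[ℂ]
        (groupVNA (FreeGroup (Fin (n + 1)))).toStarSubalgebra,
      ∀ x : (groupVNA (FreeGroup (Fin n))).toStarSubalgebra,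
        groupTrace (FreeGroup (Fin (n + 1)))
          ((Φ x : (groupVNA (FreeGroup (Fin (n + 1)))).toStarSubalgebra) :
            ltwo (FreeGroup (Fin (n + 1))) →L[ℂ] ltwo (FreeGroup (Fin (n + 1)))) =
          groupTrace (FreeGroup (Fin n)) (x : ltwo (FreeGroup (Fin n)) →L[ℂ] ltwo (FreeGroup (Fin n))) := by
  have hS := setup_vn (FreeGroup (Fin (n + 1)))
  have h0 := (good_lam (FreeGroup (Fin (n + 1)))).comp_equiv
    (FreeGroup.freeGroupCongr (finSuccEquiv n).symm)
  obtain ⟨ρ, hρ⟩ := baire hS (step hS.closed hS.norm_one (⟨0, by omega⟩ : Fin n) ⟨1, by omega⟩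
    (by simp [Fin.ext_iff])) _ h0
  exact iso_of_good _ _ ρ hρ

end Crest.Agent.R134
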