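import Crest.Agent.R134.Defs

/-! Row 134: ping-pong along the word `a · b a · b² a ⋯`. -/

set_option autoImplicit false
set_option linter.unusedSectionVars false

namespace Crest.Agent.R134

/-- ping-pong data -/
structure PP (Γ Ω : Type*) [Group Γ] [MulAction Γ Ω] where
  a : Γ
  b : Γ
  h : Ω → ℤ × Bool
  x₀ : Ω
  hb : ∀ x (k : ℤ), h (b ^ k • x) = ((h x).1 + k, (h x).2)
  ha : ∀ x, h x ≠ (0, false) → h (a • x) = (0, true)
  hx₀ : h x₀ = (0, false)

namespace PP

variable {Γ Ω : Type*} [Group Γ] [MulAction Γ Ω] (P : PP Γ Ω)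

/-- blocks -/
def s (k : ℕ) : Γ := P.b ^ k * P.a

/-- prefixes -/
def T : ℕ → Γ
  | 0 => 1
  | k + 1 => T k * P.s k

theorem T_eq (k : ℕ) : P.T (k + 1) = P.a * pre P.a P.b k := by
  induction k with
  | zero => simp [T, s, pre]
  | succ k ih => rw [T, ih, pre, s, mul_assoc]

theorem R1 (k : ℕ) {x : Ω} (hx : P.h x ≠ (0, false)) : P.h (P.s k • x) = ((k : ℤ), true) := by
  rw [s, mul_smul, ← zpow_natCast, P.hb, P.ha x hx]; simp

theorem R2 (k : ℕ) {x : Ω} (hx : P.h x ≠ ((k : ℤ), true)) : P.h ((P.s k)⁻¹ • x) = (0, false) := by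
  by_contra hne
  have := P.R1 k hne
  rw [smul_inv_smul] at this
  exact hx this

theorem R3 (j i : ℕ) {x : Ω} (hx : P.h x = (0, false)) :
    P.h ((P.s j * (P.s i)⁻¹) • x) = ((j : ℤ) - i, false) := by
  have : P.s j * (P.s i)⁻¹ = P.b ^ ((j : ℤ) - i) := by
    rw [s, s, zpow_sub, zpow_natCast, zpow_natCast]; group
  rw [this, P.hb, hx]; simp

theorem up {k k' : ℕ} (hk : k < k') {x : Ω} (hx : P.h ((P.T k')⁻¹ • x) ≠ (0, false)) :
    P.h ((P.T k)⁻¹ • x) = ((k : ℤ), true) := by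
  induction k', hk using Nat.le_induction with
  | base =>
    have := P.R1 k hx
    rwa [T, mul_inv_rev, mul_smul, smul_inv_smul] at this
  | succ n _ ih =>
    refine ih ?_
    have := P.R1 n hx
    rw [T, mul_inv_rev, mul_smul, smul_inv_smul] at this
    rw [this]; simp

theorem down {k k' : ℕ} (hk : k < k') {x : Ω} (hx : P.h ((P.T k)⁻¹ • x) ≠ ((k : ℤ), true)) :
    P.h ((P.T k')⁻¹ • x) = (0, false) := by
  by_contra hne
  exact hx (P.up hk hne)

/-- the point leaves the word at position `k` -/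
def Exit (k : ℕ) (x : Ω) : Prop :=
  P.h ((P.T k)⁻¹ • x) ≠ (0, false) ∧ P.h ((P.T k)⁻¹ • x) ≠ ((k : ℤ), true)

theorem Exit.unique {k k' : ℕ} {x : Ω} (h : P.Exit k x) (h' : P.Exit k' x) : k = k' := by
  rcases lt_trichotomy k k' with hk | hk | hk
  · exact absurd (P.up hk h'.1) h.2
  · exact hk
  · exact absurd (P.up hk h.1) h'.2

/-- target sets -/
def Z (j i : ℕ) (x : Ω) : Prop :=
  P.h ((P.T (j + 1))⁻¹ • x) = ((j : ℤ) - i, false) ∨
    P.h ((P.T (j + 2))⁻¹ • x) = (((i + 2 : ℕ) : ℤ), true)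

/-- source sets -/
def D (i : ℕ) (x : Ω) : Prop :=
  P.h ((P.T (i + 1))⁻¹ • x) = (0, false) ∨ P.h ((P.T (i + 2))⁻¹ • x) = (((i + 2 : ℕ) : ℤ), true)

theorem exit1 {j i : ℕ} (hji : j ≠ i) {x : Ω}
    (h : P.h ((P.T (j + 1))⁻¹ • x) = ((j : ℤ) - i, false)) : P.Exit (j + 1) x := by
  constructor <;> rw [h] <;> simp only [ne_eq, Prod.mk.injEq, and_true, Bool.false_eq_true,
    and_false, not_false_eq_true]
  omega

theorem exit2 {j i : ℕ} (hji : j ≠ i) {x : Ω}
    (h : P.h ((P.T (j + 2))⁻¹ • x) = (((i + 2 : ℕ) : ℤ), true)) : P.Exit (j + 2) x := by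
  constructor <;> rw [h] <;> simp only [ne_eq, Prod.mk.injEq, and_true, Bool.true_eq_false,
    and_false, not_false_eq_true]
  omega

theorem Z.unique {j i j' i' : ℕ} (hji : j ≠ i) (hji' : j' ≠ i') {x : Ω} (h : P.Z j i x)
    (h' : P.Z j' i' x) : j = j' ∧ i = i' := by
  rcases h with h | h <;> rcases h' with h' | h'
  · have := Exit.unique P (P.exit1 hji h) (P.exit1 hji' h')
    obtain rfl : j = j' := by omega
    rw [h] at h'
    simp only [Prod.mk.injEq, and_true] at h'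
    omega
  · have := Exit.unique P (P.exit1 hji h) (P.exit2 hji' h')
    rw [this, h'] at h
    simp at h
  · have := Exit.unique P (P.exit2 hji h) (P.exit1 hji' h')
    rw [this, h'] at h
    simp at h
  · have := Exit.unique P (P.exit2 hji h) (P.exit2 hji' h')
    obtain rfl : j = j' := by omega
    rw [h] at h'
    simp only [Prod.mk.injEq, and_true] at h'
    omega

theorem Z.exit {j i : ℕ} (hji : j ≠ i) {x : Ω} (h : P.Z j i x) :
    ∃ k, j + 1 ≤ k ∧ k ≤ j + 2 ∧ P.Exit k x := by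
  rcases h with h | h
  · exact ⟨j + 1, le_rfl, by omega, P.exit1 hji h⟩
  · exact ⟨j + 2, by omega, le_rfl, P.exit2 hji h⟩

theorem not_Z_base {j i : ℕ} (hji : j ≠ i) : ¬ P.Z j i P.x₀ := by
  intro h
  obtain ⟨k, hk, -, he⟩ := Z.exit P hji h
  have := P.up (k := 0) (by omega) he.1
  simp [T, P.hx₀] at this

theorem D_base (i : ℕ) : P.D i P.x₀ :=
  Or.inl (P.down (k := 0) (by omega) (by simp [T, P.hx₀]))

theorem Z.toD {j i' i : ℕ} (hji : j ≠ i') (hfar : j + 2 ≤ i ∨ i + 2 ≤ j) {x : Ω}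
    (h : P.Z j i' x) : P.D i x := by
  obtain ⟨k, hk1, hk2, he⟩ := Z.exit P hji h
  rcases hfar with hf | hf
  · exact Or.inl (P.down (by omega) he.2)
  · exact Or.inr (P.up (by omega) he.1)

theorem D.toZ (j : ℕ) {i : ℕ} {x : Ω} (h : P.D i x) :
    P.Z j i ((P.T (j + 2) * (P.T (i + 2))⁻¹) • x) := by
  rcases h with h | h
  · left
    have := P.R3 (j + 1) (i + 1) h
    rw [← mul_smul] at this
    rw [← mul_smul]
    have e1 : (P.T (j + 1))⁻¹ * (P.T (j + 2) * (P.T (i + 2))⁻¹) =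
        P.s (j + 1) * (P.s (i + 1))⁻¹ * (P.T (i + 1))⁻¹ := by
      have e2 : ∀ k, P.T (k + 2) = P.T (k + 1) * P.s (k + 1) := fun _ => rfl
      rw [e2, e2, mul_inv_rev, ← mul_assoc, inv_mul_cancel_left, mul_assoc]
    rw [e1, this]
    push_cast
    ring_nf
  · right
    rw [← mul_smul, inv_mul_cancel_left, h]

end PP

theorem exists_PP {ι : Type*} (i₀ i₁ : ι) (hi : i₀ ≠ i₁) :
    ∃ (_ : MulAction (FreeGroup ι) (ℤ × Bool × ℕ)) (P : PP (FreeGroup ι) (ℤ × Bool × ℕ)),
      P.a = FreeGroup.of i₀ ∧ P.b = FreeGroup.of i₁ := by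
  classical
  let h : ℤ × Bool × ℕ → ℤ × Bool := fun x => (x.1, x.2.1)
  have : Infinite {x // h x ≠ (0, false)} :=
    Infinite.of_injective (fun n : ℕ => (⟨(0, true, n), by simp [h]⟩ : {x // h x ≠ (0, false)}))
      fun n m hnm => by simpa using hnm
  have : Infinite {x // ¬ h x ≠ (0, false)} :=
    Infinite.of_injective (fun n : ℕ => (⟨(0, false, n), by simp [h]⟩ : {x // ¬ h x ≠ (0, false)}))
      fun n m hnm => by simpa using hnm
  have : Infinite {x // h x = (0, true)} :=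
    Infinite.of_injective (fun n : ℕ => (⟨(0, true, n), by simp [h]⟩ : {x // h x = (0, true)}))
      fun n m hnm => by simpa using hnm
  have : Infinite {x // ¬ h x = (0, true)} :=
    Infinite.of_injective (fun n : ℕ => (⟨(0, false, n), by simp [h]⟩ : {x // ¬ h x = (0, true)}))
      fun n m hnm => by simpa using hnm
  obtain ⟨e1⟩ := nonempty_equiv_of_countable (α := {x // h x ≠ (0, false)})
    (β := {x // h x = (0, true)})
  obtain ⟨e2⟩ := nonempty_equiv_of_countable (α := {x // ¬ h x ≠ (0, false)})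
    (β := {x // ¬ h x = (0, true)})
  let α : Equiv.Perm (ℤ × Bool × ℕ) := Equiv.subtypeCongr e1 e2
  have hα : ∀ x, h x ≠ (0, false) → h (α x) = (0, true) := by
    intro x hx
    have : α x = e1 ⟨x, hx⟩ := by
      simp [α, Equiv.subtypeCongr, Equiv.sumCompl_symm_apply_of_pos (p := fun x => h x ≠ (0, false)) hx]
    rw [this]
    exact (e1 ⟨x, hx⟩).2
  let β : Multiplicative ℤ →* Equiv.Perm (ℤ × Bool × ℕ) :=
    { toFun := fun k => (Equiv.addRight k.toAdd).prodCongr (Equiv.refl _)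
      map_one' := by ext x <;> simp
      map_mul' := fun k l => by ext x <;> simp; ring }
  let θ : FreeGroup ι →* Equiv.Perm (ℤ × Bool × ℕ) :=
    FreeGroup.lift fun i => if i = i₀ then α else β (Multiplicative.ofAdd 1)
  let _ : MulAction (FreeGroup ι) (ℤ × Bool × ℕ) := MulAction.compHom _ θ
  have hs : ∀ (g : FreeGroup ι) (x : ℤ × Bool × ℕ), g • x = θ g x := fun _ _ => rfl
  refine ⟨inferInstance, ⟨FreeGroup.of i₀, FreeGroup.of i₁, h, (0, false, 0), fun x k => ?_,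
    fun x hx => ?_, rfl⟩, rfl, rfl⟩
  · have : θ (FreeGroup.of i₁) = β (Multiplicative.ofAdd 1) := by simp [θ, hi.symm]
    rw [hs, map_zpow, this, ← map_zpow, ← ofAdd_zsmul]
    simp [β, h]
  · have : θ (FreeGroup.of i₀) = α := by simp [θ]
    rw [hs, this]
    exact hα x hx

end Crest.Agent.R134
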