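import Crest.Agent.R134.Defs

/-! Row 134: a Haar unitary is close, in the 2-norm, to the exponential of a centred skew-adjoint
trigonometric polynomial. -/

set_option autoImplicit false

namespace Crest.Agent.R134

open scoped InnerProductSpace

/-- the coefficients -/
noncomputable def psiC (r : ℝ) (k : ℕ) : ℝ := (-1) ^ k * r ^ (k + 1) / (k + 1)

/-- the trigonometric polynomial -/
noncomputable def psiF (r : ℝ) (m : ℕ) (z : ℂ) : ℂ :=
  ∑ k ∈ Finset.range m, (psiC r k : ℂ) * (z ^ (k + 1) - star z ^ (k + 1))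

theorem psiF_eq (r : ℝ) (m : ℕ) (z : ℂ) :
    psiF r m z = Complex.logTaylor (m + 1) (r * z) - Complex.logTaylor (m + 1) (r * star z) := by
  simp only [psiF, Complex.logTaylor, Finset.sum_range_succ', ← Finset.sum_sub_distrib,
    Nat.cast_zero, div_zero, add_zero]
  refine Finset.sum_congr rfl fun k _ => ?_
  simp only [psiC]
  push_cast
  ring

theorem psiF_continuous (r : ℝ) (m : ℕ) : Continuous (psiF r m) := by
  unfold psiF; fun_prop

theorem psi_scalar {r : ℝ} (hr0 : 0 < r) (hr1 : r < 1) {m : ℕ}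
    (hm : r ^ m ≤ (1 - r) ^ 2 / 4) {z : ℂ} (hz : ‖z‖ = 1) :
    ‖(Complex.exp (psiF r m z) - z) * (1 + r * star z)‖ ≤ 4 * (1 - r) := by
  have hs : 0 < 1 - r := by linarith
  have hz' : ‖star z‖ = 1 := by rw [norm_star, hz]
  have key : ∀ u : ℂ, ‖u‖ = 1 → ‖(r : ℂ) * u‖ = r ∧ 1 + (r : ℂ) * u ≠ 0 ∧ ‖1 + (r : ℂ) * u‖ ≤ 2 ∧
      ‖Complex.log (1 + r * u) - Complex.logTaylor (m + 1) (r * u)‖ ≤ (1 - r) / 4 := by
    intro u hu
    have h1 : ‖(r : ℂ) * u‖ = r := by
      rw [norm_mul, hu, Complex.norm_real, Real.norm_eq_abs, abs_of_pos hr0, mul_one]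
    refine ⟨h1, fun h0 => ?_, ?_, ?_⟩
    · have : (r : ℂ) * u = -1 := by linear_combination h0
      rw [this] at h1
      simp at h1; linarith
    · refine (norm_add_le _ _).trans ?_
      rw [h1, norm_one]; linarith
    · refine (Complex.norm_log_sub_logTaylor_le m (by rw [h1]; exact hr1)).trans ?_
      rw [h1]
      have h2 : r ^ (m + 1) ≤ (1 - r) ^ 2 / 4 := by
        rw [pow_succ]
        nlinarith [pow_pos hr0 m]
      calc r ^ (m + 1) * (1 - r)⁻¹ / (m + 1) ≤ r ^ (m + 1) * (1 - r)⁻¹ :=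
            div_le_self (by positivity) (by linarith [Nat.cast_nonneg (α := ℝ) m])
        _ ≤ (1 - r) ^ 2 / 4 * (1 - r)⁻¹ := by gcongr
        _ = (1 - r) / 4 := by field_simp
  obtain ⟨-, ha1, ha2, ha3⟩ := key z hz
  obtain ⟨-, hb1, hb2, hb3⟩ := key (star z) hz'
  set d : ℂ := psiF r m z - (Complex.log (1 + r * z) - Complex.log (1 + r * star z)) with hd
  have hdn : ‖d‖ ≤ (1 - r) / 2 := by
    have : d = (Complex.log (1 + r * star z) - Complex.logTaylor (m + 1) (r * star z)) -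
        (Complex.log (1 + r * z) - Complex.logTaylor (m + 1) (r * z)) := by
      rw [hd, psiF_eq]; ring
    rw [this]
    refine (norm_sub_le _ _).trans ?_
    linarith
  have hzz : z * star z = 1 := by
    have := Complex.mul_conj z
    rw [Complex.normSq_eq_norm_sq, hz] at this
    simpa using this
  have hexp : Complex.exp (psiF r m z) * (1 + r * star z) = Complex.exp d * (1 + r * z) := by
    have : psiF r m z = d + Complex.log (1 + r * z) - Complex.log (1 + r * star z) := by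
      rw [hd]; ring
    rw [this, Complex.exp_sub, Complex.exp_add, Complex.exp_log ha1, Complex.exp_log hb1]
    field_simp
  have heq : (Complex.exp (psiF r m z) - z) * (1 + r * star z) =
      (Complex.exp d - 1) * (1 + r * z) + ((1 - r : ℝ) : ℂ) * (1 - z) := by
    push_cast
    linear_combination hexp - r * hzz
  rw [heq]
  refine (norm_add_le _ _).trans ?_
  rw [norm_mul, norm_mul, Complex.norm_real, Real.norm_eq_abs, abs_of_pos hs]
  have h1 : ‖Complex.exp d - 1‖ ≤ 1 - r :=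
    (Complex.norm_exp_sub_one_le (by linarith)).trans (by linarith)
  have h2 : ‖1 - z‖ ≤ 2 := by
    refine (norm_sub_le _ _).trans ?_
    rw [hz, norm_one]; norm_num
  have h3 := mul_le_mul h1 ha2 (norm_nonneg _) hs.le
  have h4 := mul_le_mul_of_nonneg_left h2 hs.le
  linarith

section Op

variable {H : Type*} [NormedAddCommGroup H] [InnerProductSpace ℂ H] [CompleteSpace H]

theorem psi_op {r : ℝ} (hr0 : 0 < r) (hr1 : r < 1) {m : ℕ}
    (hm : r ^ m ≤ (1 - r) ^ 2 / 4) {c : H →L[ℂ] H} (hc : c ∈ unitary (H →L[ℂ] H)) :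
    ‖(NormedSpace.exp (∑ k ∈ Finset.range m, psiC r k • (c ^ (k + 1) - star c ^ (k + 1))) - c) *
      (1 + (r : ℂ) • star c)‖ ≤ 4 * (1 - r) := by
  have hn : IsStarNormal c := isStarNormal_of_mem_unitary hc
  have hF := psiF_continuous r m
  have h1 : cfc (psiF r m) c =
      ∑ k ∈ Finset.range m, psiC r k • (c ^ (k + 1) - star c ^ (k + 1)) := by
    have : psiF r m = ∑ k ∈ Finset.range m,
        fun z : ℂ => (psiC r k : ℂ) * (z ^ (k + 1) - star z ^ (k + 1)) := by
      ext z; simp [psiF]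
    rw [this, cfc_sum _ _ _ (fun k _ => by fun_prop)]
    refine Finset.sum_congr rfl fun k _ => ?_
    rw [cfc_const_mul _ _ _ (by fun_prop), cfc_sub _ _ _ (by fun_prop) (by fun_prop), cfc_pow_id c,
      cfc_pow (fun z : ℂ => star z) _ c, cfc_star_id (a := c), Complex.coe_smul]
  have h2 : cfc (fun z : ℂ => Complex.exp (psiF r m z)) c = NormedSpace.exp (cfc (psiF r m) c) := by
    rw [cfc_comp' Complex.exp (psiF r m) c (by fun_prop) hF.continuousOn,
      CFC.complex_exp_eq_normedSpace_exp (cfc_predicate _ _)]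
  have h3 : cfc (fun z : ℂ => 1 + (r : ℂ) * star z) c = 1 + (r : ℂ) • star c := by
    rw [cfc_const_add _ _ _ (by fun_prop), cfc_const_mul _ _ _ (by fun_prop), cfc_star_id (a := c),
      map_one]
  have h4 : cfc (fun z : ℂ => Complex.exp (psiF r m z) - z) c =
      NormedSpace.exp (cfc (psiF r m) c) - c := by
    rw [cfc_sub _ _ _ (by fun_prop) (by fun_prop), h2, cfc_id' ℂ c]
  rw [← h1, ← h3, ← h4, ← cfc_mul _ _ _ (by fun_prop) (by fun_prop)]
  refine norm_cfc_le (by linarith) fun z hz => psi_scalar hr0 hr1 hm ?_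
  simpa using spectrum.subset_circle_of_unitary hc hz

/-- truncated Neumann series applied to `Ω` -/
noncomputable def neu (r : ℝ) (u : H →L[ℂ] H) (Ω : H) : ℕ → H
  | 0 => 0
  | K + 1 => Ω - (r : ℂ) • u (neu r u Ω K)

omit [CompleteSpace H] in
theorem neu_eq (r : ℝ) (u : H →L[ℂ] H) (Ω : H) (K : ℕ) :
    Ω = (1 + (r : ℂ) • u) (neu r u Ω K) + ((-r : ℝ) : ℂ) ^ K • (u ^ K) Ω := by
  induction K with
  | zero => simp [neu]
  | succ K ih =>
    have h := congrArg (fun v => (r : ℂ) • u v) ih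
    simp only [add_apply, one_apply_eq_self, smul_apply, map_add, map_smul] at h
    simp only [neu, add_apply, one_apply_eq_self, smul_apply, map_sub, map_smul, pow_succ',
      mul_apply_eq_comp]
    rw [h]
    push_cast
    module

omit [CompleteSpace H] in
theorem neu_orth (r : ℝ) (u : H →L[ℂ] H) (Ω : H) (h : ∀ k : ℕ, ⟪Ω, (u ^ (k + 1)) Ω⟫_ℂ = 0)
    (K : ℕ) : ∀ j : ℕ, ⟪Ω, (u ^ (j + 1)) (neu r u Ω K)⟫_ℂ = 0 := by
  induction K with
  | zero => simp [neu]
  | succ K ih =>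
    intro j
    have := ih (j + 1)
    rw [pow_succ, mul_apply_eq_comp] at this
    rw [neu, map_sub, map_smul, inner_sub_right, inner_smul_right, h, this]
    simp

theorem neu_norm {r : ℝ} (hr0 : 0 < r) (hr1 : r < 1) {u : H →L[ℂ] H}
    (hu : u ∈ unitary (H →L[ℂ] H)) {Ω : H} (hΩ : ‖Ω‖ = 1)
    (h : ∀ k : ℕ, ⟪Ω, (u ^ (k + 1)) Ω⟫_ℂ = 0) (K : ℕ) :
    (1 - r) * ‖neu r u Ω K‖ ^ 2 ≤ 1 := by
  have key : (1 - r ^ 2) * ‖neu r u Ω K‖ ^ 2 ≤ 1 := by
    induction K with
    | zero => simp [neu]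
    | succ K ih =>
      have h0 := neu_orth r u Ω h K 0
      rw [zero_add, pow_one] at h0
      have h1 : ‖neu r u Ω (K + 1)‖ ^ 2 = 1 + r ^ 2 * ‖neu r u Ω K‖ ^ 2 := by
        rw [neu, @norm_sub_sq ℂ, inner_smul_right, h0, norm_smul, hΩ,
          ContinuousLinearMap.norm_map_of_mem_unitary hu, Complex.norm_real, Real.norm_eq_abs,
          mul_pow, sq_abs]
        simp
      rw [h1]
      nlinarith [sq_nonneg r]
  have : 1 - r ≤ 1 - r ^ 2 := by nlinarith
  exact (mul_le_mul_of_nonneg_right this (sq_nonneg _)).trans key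

end Op

/-- Sketch. Fix `0 < r < 1`, `p k = (-1)^k r^(k+1)/(k+1)`.  With the continuous functional calculus of the
normal element `c` (spectrum in the unit circle): the sum is `cfc f_m c`,
`f_m z = ∑_{k<m} p k (z^(k+1) - conj z^(k+1)) → log (1 + r z) - log (1 + r conj z)` uniformly on the circle
(`Complex.hasSum_taylorSeries_log`, tail `≤ 2 ∑_{k>m} r^k`), `exp (cfc f c) = cfc (exp ∘ f) c`
(`CFC.exp_eq_normedSpace_exp`/`cfc_comp`), hence `exp(…)` is norm-close to `U = (1 + r c) D` where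
`(1 + r c⋆) D = 1 = D (1 + r c⋆)`; `U - c = (1 - r)(1 - c) D`.  And `‖D Ω‖² ≤ 1/(1 - r²)`:
`D Ω = lim ∑_{k<K} (-r)^k (c⋆)^k Ω`, the vectors `(c⋆)^k Ω` being orthonormal.  So
`‖(U - c) Ω‖ ≤ 2 √((1-r)/(1+r)) → 0`.  (Any other proof is fine; only the statement is frozen.) -/
theorem exists_psi (H : Type*) [NormedAddCommGroup H] [InnerProductSpace ℂ H] [CompleteSpace H]
    (ε : ℝ) (hε : 0 < ε) :
    ∃ (m : ℕ) (p : ℕ → ℝ), ∀ c : H →L[ℂ] H, c ∈ unitary (H →L[ℂ] H) → ∀ Ω : H, ‖Ω‖ = 1 →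
      (∀ k : ℕ, ⟪Ω, (c ^ (k + 1)) Ω⟫_ℂ = 0) →
      ‖NormedSpace.exp (∑ k ∈ Finset.range m, p k • (c ^ (k + 1) - star c ^ (k + 1))) Ω - c Ω‖
        ≤ ε := by
  set s : ℝ := min (1 / 2) (ε ^ 2 / 16) with hs
  have hs0 : 0 < s := lt_min (by norm_num) (by positivity)
  have hs1 : s ≤ 1 / 2 := min_le_left _ _
  have hs2 : s ≤ ε ^ 2 / 16 := min_le_right _ _
  set r : ℝ := 1 - s with hr
  have hr0 : 0 < r := by linarith
  have hr1 : r < 1 := by linarith
  have hsr : 1 - r = s := by ring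
  obtain ⟨m, hm⟩ := exists_pow_lt_of_lt_one (x := (1 - r) ^ 2 / 4) (by rw [hsr]; positivity) hr1
  refine ⟨m, psiC r, fun c hc Ω hΩ h => ?_⟩
  have h1 := psi_op hr0 hr1 hm.le hc
  set T := NormedSpace.exp (∑ k ∈ Finset.range m, psiC r k • (c ^ (k + 1) - star c ^ (k + 1))) - c
    with hT
  change ‖T Ω‖ ≤ ε
  have hu : star c ∈ unitary (H →L[ℂ] H) := Unitary.star_mem hc
  have h' : ∀ k : ℕ, ⟪Ω, (star c ^ (k + 1)) Ω⟫_ℂ = 0 := fun k => by
    rw [← star_pow, ContinuousLinearMap.star_eq_adjoint, ContinuousLinearMap.adjoint_inner_right,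
      inner_eq_zero_symm, h]
  have hK : ∀ K : ℕ, ‖T Ω‖ ≤ ε + ‖T‖ * r ^ K := fun K => by
    have h2 := neu_norm hr0 hr1 hu hΩ h' K
    have h3 : T Ω = (T * (1 + (r : ℂ) • star c)) (neu r (star c) Ω K) +
        ((-r : ℝ) : ℂ) ^ K • T ((star c ^ K) Ω) := by
      conv_lhs => rw [neu_eq r (star c) Ω K]
      rw [map_add, map_smul, mul_apply_eq_comp]
    rw [h3]
    refine (norm_add_le _ _).trans (add_le_add ?_ ?_)
    · refine (ContinuousLinearMap.le_opNorm _ _).trans
        ((mul_le_mul_of_nonneg_right h1 (norm_nonneg _)).trans ?_)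
      rw [hsr] at h2 ⊢
      refine (pow_le_pow_iff_left₀ (by positivity) hε.le two_ne_zero).1 ?_
      nlinarith
    · rw [norm_smul, norm_pow, Complex.norm_real, Real.norm_eq_abs, abs_neg, abs_of_pos hr0,
        mul_comm]
      refine mul_le_mul_of_nonneg_right ?_ (by positivity)
      refine (ContinuousLinearMap.le_opNorm _ _).trans ?_
      rw [ContinuousLinearMap.norm_map_of_mem_unitary (pow_mem hu K), hΩ, mul_one]
  have hlim : Filter.Tendsto (fun K : ℕ => ε + ‖T‖ * r ^ K) Filter.atTop (nhds (ε + ‖T‖ * 0)) :=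
    ((tendsto_pow_atTop_nhds_zero_of_lt_one hr0.le hr1).const_mul _).const_add _
  simpa using ge_of_tendsto' hlim hK

end Crest.Agent.R134
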