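import Crest.Agent.R134.Defs

/-! Row 134: conjugates of a function of the extra generator. -/

set_option autoImplicit false
set_option linter.unusedSectionVars false

namespace Crest.Agent.R134

variable {ι : Type*}

/-- the extra generator -/
abbrev cc (ι : Type*) : FreeGroup (Option ι) := FreeGroup.of none

/-- the inclusion of the smaller free group -/
abbrev jj (ι : Type*) : FreeGroup ι →* FreeGroup (Option ι) := FreeGroup.map some

open Classical in
/-- counter at the base point -/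
noncomputable def bump (Γ : Type*) [One Γ] (m : ℤ) : Equiv.Perm (Γ × ℤ) where
  toFun x := (x.1, x.2 + if x.1 = 1 then m else 0)
  invFun x := (x.1, x.2 - if x.1 = 1 then m else 0)
  left_inv x := by simp
  right_inv x := by simp

/-- `bump` as a homomorphism -/
noncomputable def bumpHom (Γ : Type*) [One Γ] : Multiplicative ℤ →* Equiv.Perm (Γ × ℤ) where
  toFun m := bump Γ m.toAdd
  map_one' := by ext x <;> simp [bump]
  map_mul' m n := by
    ext x
    · simp [bump]
    · simp only [bump, toAdd_mul, Equiv.Perm.coe_mul, Equiv.coe_fn_mk, Function.comp_apply]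
      split_ifs <;> ring

/-- left translation of the first coordinate -/
def shiftHom (Γ : Type*) [Group Γ] : Γ →* Equiv.Perm (Γ × ℤ) where
  toFun g := (Equiv.mulLeft g).prodCongr (Equiv.refl ℤ)
  map_one' := by ext x <;> simp
  map_mul' g h := by ext x <;> simp [mul_assoc]

/-- the action separating the conjugates -/
noncomputable def theta (ι : Type*) : FreeGroup (Option ι) →* Equiv.Perm (FreeGroup ι × ℤ) :=
  FreeGroup.lift fun o => match o with
    | none => bump _ 1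
    | some i => shiftHom _ (FreeGroup.of i)

theorem theta_jj (g : FreeGroup ι) : theta ι (jj ι g) = shiftHom _ g := by
  have : (theta ι).comp (jj ι) = shiftHom _ := by
    ext1 i
    simp [theta]
  exact DFunLike.congr_fun this g

theorem theta_cc (m : ℤ) : theta ι (cc ι ^ m) = bump _ m := by
  have h1 : theta ι (cc ι) = bumpHom _ (Multiplicative.ofAdd 1) := by
    simp [theta, bumpHom]
  rw [map_zpow, h1, ← map_zpow, ← ofAdd_zsmul]
  simp [bumpHom]

theorem conj_inj {g h : FreeGroup ι} {m m' : ℤ} (hm : m ≠ 0)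
    (H : jj ι g * cc ι ^ m * (jj ι g)⁻¹ = jj ι h * cc ι ^ m' * (jj ι h)⁻¹) : g = h := by
  have h1 := congrArg (fun x => (theta ι x (g, 0)).2) H
  simp only [map_mul, ← map_inv, theta_jj, theta_cc] at h1
  by_contra hne
  have h2 : h⁻¹ * g ≠ 1 := fun h0 => hne (inv_mul_eq_one.1 h0).symm
  simp [shiftHom, bump, h2, hm] at h1

theorem cc_zpow_ne_one {m : ℤ} (hm : m ≠ 0) : cc ι ^ m ≠ 1 := by
  intro H
  have h1 := congrArg (fun x => (theta ι x (1, 0)).2) H
  simp only [theta_cc, map_one] at h1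
  simp [bump, hm] at h1

/-- `K ↦ ∑ K_g g ψ g⁻¹` -/
noncomputable def Xi (ψ : RG (FreeGroup (Option ι))) :
    RG (FreeGroup ι) →ₗ[ℝ] RG (FreeGroup (Option ι)) :=
  (Finsupp.linearCombination ℝ fun g => e (jj ι g) * ψ * e (jj ι g)⁻¹) ∘ₗ
    (MonoidAlgebra.coeffLinearEquiv ℝ).toLinearMap

theorem Xi_single (ψ : RG (FreeGroup (Option ι))) (g : FreeGroup ι) (r : ℝ) :
    Xi ψ (MonoidAlgebra.single g r) = r • (e (jj ι g) * ψ * e (jj ι g)⁻¹) := by
  simp [Xi]

theorem Xi_one (ψ : RG (FreeGroup (Option ι))) : Xi ψ 1 = ψ := by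
  rw [MonoidAlgebra.one_def, Xi_single]
  simp [← MonoidAlgebra.one_def]

theorem Xi_e_mul (ψ : RG (FreeGroup (Option ι))) (t : FreeGroup ι) (K : RG (FreeGroup ι)) :
    Xi ψ (e t * K) = e (jj ι t) * Xi ψ K * e (jj ι t)⁻¹ := by
  induction K using MonoidAlgebra.induction_linear with
  | zero => simp
  | add a b ha hb => simp only [mul_add, add_mul, map_add, ha, hb]
  | single g r =>
    rw [MonoidAlgebra.single_mul_single, Xi_single, Xi_single, one_mul, map_mul, mul_inv_rev,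
      ← e_mul_e, ← e_mul_e]
    simp only [mul_smul_comm, smul_mul_assoc, mul_assoc]

theorem sta_Xi {ψ : RG (FreeGroup (Option ι))} (hψ : sta ψ = -ψ) (K : RG (FreeGroup ι)) :
    sta (Xi ψ K) = -Xi ψ K := by
  induction K using MonoidAlgebra.induction_linear with
  | zero => simp
  | add a b ha hb => simp only [map_add, ha, hb, neg_add]
  | single g r =>
    rw [Xi_single, map_smul, sta_mul, sta_mul, hψ, sta_single, sta_single, inv_inv]
    simp only [neg_mul, mul_neg, smul_neg, mul_assoc]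

theorem Xi_eq_sum (ψ : RG (FreeGroup (Option ι))) (K : RG (FreeGroup ι)) :
    Xi ψ K = ∑ g ∈ K.coeff.support, K.coeff g • (e (jj ι g) * ψ * e (jj ι g)⁻¹) := by
  simp [Xi, Finsupp.linearCombination_apply, Finsupp.sum]

theorem coeff_conj_ne {ψ : RG (FreeGroup (Option ι))}
    (hs : ∀ x, ψ.coeff x ≠ 0 → ∃ m : ℤ, m ≠ 0 ∧ x = cc ι ^ m) (g : FreeGroup ι)
    (x : FreeGroup (Option ι)) (hx : (e (jj ι g) * ψ * e (jj ι g)⁻¹).coeff x ≠ 0) :
    ∃ m : ℤ, m ≠ 0 ∧ x = jj ι g * cc ι ^ m * (jj ι g)⁻¹ := by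
  rw [coeff_mul_e, coeff_e_mul] at hx
  obtain ⟨m, hm, h⟩ := hs _ hx
  refine ⟨m, hm, ?_⟩
  rw [← h]
  group

theorem nsq_Xi {ψ : RG (FreeGroup (Option ι))}
    (hs : ∀ x, ψ.coeff x ≠ 0 → ∃ m : ℤ, m ≠ 0 ∧ x = cc ι ^ m) (K : RG (FreeGroup ι)) :
    nsq (Xi ψ K) = nsq K * nsq ψ := by
  rw [Xi_eq_sum, nsq_sum_of_disjoint, nsq_eq K subset_rfl, Finset.sum_mul]
  · exact Finset.sum_congr rfl fun g _ => by rw [nsq_smul, nsq_mul_e, nsq_e_mul]
  · intro g _ h _ hgh x
    by_contra hne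
    rw [not_or] at hne
    obtain ⟨h1, h2⟩ := hne
    rw [MonoidAlgebra.coeff_smul_apply, smul_eq_mul] at h1 h2
    obtain ⟨m, hm, e1⟩ := coeff_conj_ne hs g x (right_ne_zero_of_mul h1)
    obtain ⟨m', -, e2⟩ := coeff_conj_ne hs h x (right_ne_zero_of_mul h2)
    exact hgh (conj_inj hm (e1.symm.trans e2))

theorem supp_Xi {ψ : RG (FreeGroup (Option ι))}
    (hs : ∀ x, ψ.coeff x ≠ 0 → ∃ m : ℤ, m ≠ 0 ∧ x = cc ι ^ m) (K : RG (FreeGroup ι))
    (x : FreeGroup (Option ι)) (hx : (Xi ψ K).coeff x ≠ 0) : ∃ m : ℤ, IsConj (cc ι ^ m) x := by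
  rw [Xi_eq_sum, MonoidAlgebra.coeff_sum, Finsupp.finsetSum_apply] at hx
  obtain ⟨g, -, hg⟩ := Finset.exists_ne_zero_of_sum_ne_zero hx
  rw [MonoidAlgebra.coeff_smul_apply, smul_eq_mul] at hg
  obtain ⟨m, -, e1⟩ := coeff_conj_ne hs g x (right_ne_zero_of_mul hg)
  exact ⟨m, isConj_iff.2 ⟨_, e1.symm⟩⟩

section Der

variable {G : Type*} [Group G] {X : RG G →ₗ[ℝ] RG G}

theorem IsDer.e_mul_zero (hX : IsDer X) {g h : G} (hg : X (e g) = 0) (hh : X (e h) = 0) :
    X (e (g * h)) = 0 := by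
  rw [← e_mul_e, hX, hg, hh]; simp

theorem IsDer.e_inv_zero (hX : IsDer X) {g : G} (hg : X (e g) = 0) : X (e g⁻¹) = 0 := by
  have h := hX (e g⁻¹) (e g)
  rw [e_mul_e, inv_mul_cancel, e_one, hX.map_one, hg, mul_zero, add_zero] at h
  have h2 := congrArg (· * e g⁻¹) h
  simp only [zero_mul, mul_assoc, e_mul_e, mul_inv_cancel, e_one, mul_one] at h2
  exact h2.symm

theorem IsDer.e_pow_zero (hX : IsDer X) {g : G} (hg : X (e g) = 0) (n : ℕ) : X (e (g ^ n)) = 0 := by
  induction n with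
  | zero => rw [pow_zero, e_one, hX.map_one]
  | succ n ih => rw [pow_succ]; exact hX.e_mul_zero ih hg

theorem IsDer.pre (hX : IsDer X) {a b : G} {ζ : RG G} (ha : X (e a) = e a * ζ) (hb : X (e b) = 0)
    (L : ℕ) : X (e (pre a b L)) =
      (∑ k ∈ Finset.range L, e (pre a b (k + 1)) * ζ * e (pre a b (k + 1))⁻¹) * e (pre a b L) := by
  induction L with
  | zero => simp only [R134.pre, e_one, hX.map_one, Finset.range_zero, Finset.sum_empty, zero_mul]
  | succ L ih =>
    have h1 : (e (R134.pre a b (L + 1)) : RG G) = e (R134.pre a b L) * (e (b ^ (L + 1)) * e a) := by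
      rw [e_mul_e, e_mul_e]; rfl
    rw [Finset.sum_range_succ, add_mul, mul_assoc (e (R134.pre a b (L + 1)) * ζ), e_mul_e,
      inv_mul_cancel, e_one, mul_one]
    conv_lhs => rw [h1, hX, ih, hX, hX.e_pow_zero hb, ha, zero_mul, zero_add]
    conv_rhs => rw [h1]
    simp only [mul_assoc]

end Der

end Crest.Agent.R134
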