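import Crest.Agent.R134.GFlow
import Crest.Agent.R134.Der
import Crest.Agent.R134.Psi
import Crest.Agent.R134.Comb
import Crest.Agent.R134.Xi

/-! Row 134: the perturbation step. -/

set_option autoImplicit false

namespace Crest.Agent.R134

open scoped InnerProductSpace

variable {H : Type*} [NormedAddCommGroup H] [InnerProductSpace ℂ H] [CompleteSpace H]

theorem Good.comp_equiv {M : StarSubalgebra ℂ (H →L[ℂ] H)} {Ω : H} {Λ Λ' : Type*} [Group Λ]
    [Group Λ'] {π : Λ →* (H →L[ℂ] H)} (h : Good M Ω π) (f : Λ' ≃* Λ) :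
    Good M Ω (π.comp f.toMonoidHom) where
  urep := ⟨fun g => h.urep.mem _, fun g => by simp [h.urep.star_eq]⟩
  reg g hg := h.reg _ (by simpa using hg)
  tot := by
    have : (Set.range fun g => (π.comp f.toMonoidHom) g Ω) = Set.range fun g => π g Ω :=
      f.surjective.range_comp fun g => π g Ω
    unfold Tot
    rw [this]
    exact h.tot

/-- the endomorphism `c ↦ c W` -/
def twist {ι : Type*} (W : FreeGroup ι) : FreeGroup (Option ι) →* FreeGroup (Option ι) :=
  FreeGroup.lift fun o => match o with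
    | none => cc ι * jj ι W
    | some i => FreeGroup.of (some i)

theorem twist_jj {ι : Type*} (W g : FreeGroup ι) : twist W (jj ι g) = jj ι g := by
  have : (twist W).comp (jj ι) = jj ι := by
    ext1 i
    simp [twist]
  exact DFunLike.congr_fun this g

theorem twist_cc {ι : Type*} (W : FreeGroup ι) : twist W (cc ι) = cc ι * jj ι W := by
  simp [twist]

theorem twist_comp {ι : Type*} (W : FreeGroup ι) :
    (twist W).comp (twist W⁻¹) = MonoidHom.id _ := by
  ext1 o
  cases o with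
  | none =>
    rw [MonoidHom.comp_apply, twist_cc, map_mul, twist_cc, twist_jj, mul_assoc, ← map_mul]
    simp
  | some i => simp [twist]

/-- the automorphism `c ↦ c W⁻¹` -/
def twistEquiv {ι : Type*} (W : FreeGroup ι) : FreeGroup (Option ι) ≃* FreeGroup (Option ι) :=
  MonoidHom.toMulEquiv (twist W⁻¹) (twist W) (twist_comp W) (by simpa using twist_comp W⁻¹)

theorem step {M : StarSubalgebra ℂ (H →L[ℂ] H)} (hM : IsClosed (M : Set (H →L[ℂ] H)))
    {Ω : H} (hΩ : ‖Ω‖ = 1) {ι : Type} [Finite ι] (i₀ i₁ : ι) (hi : i₀ ≠ i₁) :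
    StepProp M Ω ι := by
  classical
  intro π hπ ε hε
  have hε3 : 0 < ε / 3 := by positivity
  obtain ⟨m, p, hp⟩ := exists_psi H (ε / 3) hε3
  set ψ : RG (FreeGroup (Option ι)) :=
    ∑ k ∈ Finset.range m, p k • (e (cc ι ^ (k + 1)) - e (cc ι ^ (k + 1))⁻¹) with hψ
  have hψs : sta ψ = -ψ := by
    rw [hψ, map_sum, ← Finset.sum_neg_distrib]
    refine Finset.sum_congr rfl fun k _ => ?_
    rw [map_smul, map_sub, sta_single, sta_single, inv_inv, ← smul_neg, neg_sub]
  have hψsupp : ∀ x, ψ.coeff x ≠ 0 → ∃ n : ℤ, n ≠ 0 ∧ x = cc ι ^ n := by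
    intro x hx
    rw [hψ, MonoidAlgebra.coeff_sum, Finsupp.finsetSum_apply] at hx
    obtain ⟨k, -, hk⟩ := Finset.exists_ne_zero_of_sum_ne_zero hx
    rw [MonoidAlgebra.coeff_smul_apply, smul_eq_mul] at hk
    have h2 := right_ne_zero_of_mul hk
    by_cases h3 : cc ι ^ (k + 1) = x
    · exact ⟨((k + 1 : ℕ) : ℤ), by omega, by rw [zpow_natCast, h3]⟩
    · by_cases h4 : (cc ι ^ (k + 1))⁻¹ = x
      · exact ⟨-((k + 1 : ℕ) : ℤ), by omega, by rw [zpow_neg, zpow_natCast, h4]⟩
      · exact absurd (by simp [Finsupp.single_apply, h3, h4]) h2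
  have hs0 := nsq_nonneg ψ
  obtain ⟨L, K, hK, hJK⟩ := comb i₀ i₁ hi ((ε / 3) ^ 2 / (nsq ψ + 1)) (by positivity)
  have hsq : ∀ x : ℝ, x ≤ (ε / 3) ^ 2 / (nsq ψ + 1) → √(x * nsq ψ) ≤ ε / 3 := by
    intro x hx
    rw [Real.sqrt_le_left hε3.le]
    refine (mul_le_mul_of_nonneg_right hx hs0).trans ?_
    rw [div_mul_eq_mul_div, div_le_iff₀ (by positivity)]
    nlinarith [sq_nonneg (ε / 3)]
  set z : Option ι → RG (FreeGroup (Option ι)) := fun o => if o = some i₀ then Xi ψ K else 0 with hz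
  obtain ⟨X, hX, hXz⟩ := exists_der z
  have hXc : X (e (cc ι)) = 0 := by rw [hXz]; simp [hz]
  have hXψ : X ψ = 0 := by
    rw [hψ, map_sum]
    refine Finset.sum_eq_zero fun k _ => ?_
    rw [map_smul, map_sub, hX.e_inv_zero (hX.e_pow_zero hXc _), hX.e_pow_zero hXc]; simp
  have hzs : ∀ o, sta (z o) = -z o := by
    intro o
    simp only [hz]
    split_ifs
    · exact sta_Xi hψs K
    · simp
  have hzsupp : ∀ o g, (z o).coeff g ≠ 0 → ∃ n : ℤ, IsConj (cc ι ^ n) g := by
    intro o g hg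
    simp only [hz] at hg
    split_ifs at hg
    · exact supp_Xi hψsupp K g hg
    · simp at hg
  set W : FreeGroup ι := pre (FreeGroup.of i₀) (FreeGroup.of i₁) L with hW
  have h0 := hπ.comp_equiv (twistEquiv W)
  set π₀ := π.comp (twistEquiv W).toMonoidHom with hπ₀
  have hπ₀j : ∀ g, π₀ (jj ι g) = π (jj ι g) := fun g => by
    change π (twist W⁻¹ (jj ι g)) = _
    rw [twist_jj]
  have hπ₀c : π₀ (cc ι * jj ι W) = π (cc ι) := by
    change π (twist W⁻¹ (cc ι * jj ι W)) = _
    rw [map_mul, twist_jj, twist_cc, mul_assoc, ← map_mul, inv_mul_cancel, map_one, mul_one]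
  obtain ⟨π', hπ', hest⟩ := gflow hM hΩ X hX (der_growth z X hX hXz) (der_sta z X hX hXz hzs)
    (der_trace z X hX hXz (cc ι) hXc hzsupp) (κ := Option ι)
    (fun o => o.elim (jj ι W) fun i => FreeGroup.of (some i)) (fun o => o.elim ψ fun _ => 0)
    (fun o => by cases o <;> simp [hXψ]) (fun o => by cases o <;> simp [hψs]) π₀ h0 (ε / 3) hε3
  refine ⟨π', W, hπ', fun i => ?_, ?_⟩
  · have h1 := hest (some i)
    simp only [Option.elim_some, map_zero, NormedSpace.exp_zero, zero_mul, sub_zero,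
      one_apply_eq_self] at h1
    have h2 : π₀ (FreeGroup.of (some i)) = π (FreeGroup.of (some i)) := by
      simpa using hπ₀j (FreeGroup.of i)
    rw [h2, hXz, nsq_e_mul] at h1
    have h3 : √(nsq (z (some i))) ≤ ε / 3 := by
      simp only [hz]
      split_ifs
      · rw [nsq_Xi hψsupp]; exact hsq _ hK
      · simpa using hε3.le
    linarith
  · have h1 := hest none
    simp only [Option.elim_none] at h1
    have hXa : X (e (jj ι (FreeGroup.of i₀))) = e (jj ι (FreeGroup.of i₀)) * Xi ψ K := by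
      have := hXz (some i₀)
      simpa [hz] using this
    have hXb : X (e (jj ι (FreeGroup.of i₁))) = 0 := by
      have := hXz (some i₁)
      simpa [hz, hi.symm] using this
    have h2 : X (e (jj ι W)) - ψ * e (jj ι W) =
        Xi ψ (Jel (FreeGroup.of i₀) (FreeGroup.of i₁) L * K - 1) * e (jj ι W) := by
      rw [map_sub, Xi_one, sub_mul, hW, map_pre, hX.pre hXa hXb, Jel,
        Finset.sum_mul _ _ K, map_sum]
      simp only [Xi_e_mul, map_pre]
    rw [h2, nsq_mul_e, nsq_Xi hψsupp] at h1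
    have h3 := hsq _ hJK
    have h4 := hp (π₀ (cc ι)) (h0.urep.mem_unitary _) (π₀ (jj ι W) Ω)
      (by rw [h0.urep.norm_apply, hΩ]) (fun k => by
        rw [← map_pow, ← mul_apply_eq_comp, ← map_mul, h0.urep.inner_apply]
        refine h0.reg _ fun h => ?_
        have h5 : cc ι ^ ((k + 1 : ℕ) : ℤ) = 1 := by
          rw [zpow_natCast]
          have := congrArg (fun x => jj ι W * x * (jj ι W)⁻¹) h
          simpa [mul_assoc] using this
        exact cc_zpow_ne_one (by omega) h5)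
    have h5 : ev π₀ ψ =
        ∑ k ∈ Finset.range m, p k • (π₀ (cc ι) ^ (k + 1) - star (π₀ (cc ι)) ^ (k + 1)) := by
      rw [hψ, map_sum]
      refine Finset.sum_congr rfl fun k _ => ?_
      rw [map_smul, map_sub, ev_e, ev_e, ← star_pow, ← map_pow, h0.urep.star_eq]
    rw [← h5, ← mul_apply_eq_comp (π₀ (cc ι)), ← map_mul, hπ₀c] at h4
    have h6 := norm_sub_le_norm_sub_add_norm_sub (π' (jj ι W) Ω)
      (NormedSpace.exp (ev π₀ ψ) (π₀ (jj ι W) Ω)) (π (cc ι) Ω)
    change ‖π' (jj ι W) Ω - π (cc ι) Ω‖ ≤ ε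
    linarith

end Crest.Agent.R134
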